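import Vale.Agent.Lib.P184.Cocycle

/-!
Truncations of a summable idempotent function and the vanishing theorem over a normed ring.
-/

namespace Vale.Agent.Lib.P184

open MonoidAlgebra Filter Topology

set_option linter.unusedSectionVars false

variable {G : Type*} [Group G] {D : Type*} [NormedRing D]

/-- The truncation of `E` to a finite set, as an element of the group ring. -/
noncomputable def trunc (E : G → D) (F : Finset G) : MonoidAlgebra D G :=
  ofCoeff (Finsupp.indicator F fun g _ => E g)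

open Classical in
lemma trunc_coeff (E : G → D) (F : Finset G) (g : G) :
    (trunc E F).coeff g = if g ∈ F then E g else 0 := by
  show (Finsupp.indicator F fun g _ => E g) g = _
  rw [Finsupp.indicator_apply]
  split_ifs <;> rfl

lemma trunc_support (E : G → D) (F : Finset G) : (trunc E F).coeff.support ⊆ F := by
  classical
  intro g hg
  rw [Finsupp.mem_support_iff, trunc_coeff] at hg
  by_contra h
  simp [h] at hg

/-- A translate version of the sum bound. -/
lemma sum_translate_le {v : G → ℝ} (hv : ∀ g, 0 ≤ v g) (hs : Summable v) (h : G) (S : Finset G) :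
    ∑ g ∈ S, v (h⁻¹ * g) ≤ ∑' g, v g := by
  have hs' : Summable fun g => v (h⁻¹ * g) := (Equiv.mulLeft h⁻¹).summable_iff.mpr hs
  calc ∑ g ∈ S, v (h⁻¹ * g) ≤ ∑' g, v (h⁻¹ * g) := hs'.sum_le_tsum S (fun g _ => hv _)
    _ = ∑' g, v g := (Equiv.mulLeft h⁻¹).tsum_eq v

section Trunc

variable (E : G → D) (hE : Summable fun g => ‖E g‖)
  (hid : ∀ g, HasSum (fun h => E h * E (h⁻¹ * g)) (E g))

open Classical in
/-- The tail function of `E` off a finite set. -/
noncomputable def tail (F : Finset G) (g : G) : ℝ := if g ∈ F then 0 else ‖E g‖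

lemma tail_nonneg (F : Finset G) (g : G) : 0 ≤ tail E F g := by
  unfold tail; split_ifs
  · exact le_rfl
  · exact norm_nonneg _

include hE

lemma tail_hasSum (F : Finset G) :
    HasSum (tail E F) ((∑' g, ‖E g‖) - ∑ g ∈ F, ‖E g‖) := by
  classical
  have h1 : HasSum (fun g => if g ∈ F then ‖E g‖ else 0) (∑ g ∈ F, ‖E g‖) := by
    have h0 : HasSum (fun g => if g ∈ F then ‖E g‖ else 0)
        (∑ g ∈ F, if g ∈ F then ‖E g‖ else 0) :=
      hasSum_sum_of_ne_finset_zero (fun g hg => by simp [hg])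
    have e : (∑ g ∈ F, if g ∈ F then ‖E g‖ else 0) = ∑ g ∈ F, ‖E g‖ :=
      Finset.sum_congr rfl (fun g hg => by simp [hg])
    rwa [e] at h0
  have h2 := hE.hasSum.sub h1
  have h3 : tail E F = fun b => ‖E b‖ - if b ∈ F then ‖E b‖ else 0 := by
    funext g
    unfold tail
    split_ifs <;> simp
  rw [h3]
  exact h2

lemma tail_summable (F : Finset G) : Summable (tail E F) := (tail_hasSum E hE F).summable

lemma trunc_size_le (F : Finset G) : size1 (trunc E F) ≤ ∑' g, ‖E g‖ := by
  classical
  rw [size1, wsize_eq_sum _ _ (trunc_support E F)]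
  have : ∑ g ∈ F, (1 : ℝ) * ‖(trunc E F).coeff g‖ = ∑ g ∈ F, ‖E g‖ := by
    apply Finset.sum_congr rfl
    intro g hg
    rw [trunc_coeff, if_pos hg, one_mul]
  rw [this]
  exact hE.sum_le_tsum F (fun g _ => norm_nonneg _)

include hid

/-- Pointwise bound for the defect of a truncation. -/
lemma trunc_defect_pointwise (F : Finset G) (g : G) :
    ‖(defect (trunc E F)).coeff g‖ ≤
      (∑' h, tail E F h * ‖E (h⁻¹ * g)‖) + (∑' h, ‖E h‖ * tail E F (h⁻¹ * g)) + tail E F g := by
  classical
  set x := trunc E F with hx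
  have hcoeff : ∀ k, x.coeff k = if k ∈ F then E k else 0 := trunc_coeff E F
  have hnorm : ∀ k, ‖E k - x.coeff k‖ = tail E F k := by
    intro k
    rw [hcoeff]
    unfold tail
    split_ifs <;> simp
  have hnormx : ∀ k, ‖x.coeff k‖ ≤ ‖E k‖ := by
    intro k
    rw [hcoeff]
    split_ifs <;> simp
  -- the product as a finite sum
  have hmul : HasSum (fun h => x.coeff h * x.coeff (h⁻¹ * g)) ((x * x).coeff g) := by
    rw [coeff_mul_apply_left]
    have h0 : HasSum (fun h => x.coeff h * x.coeff (h⁻¹ * g))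
        (∑ h ∈ x.coeff.support, x.coeff h * x.coeff (h⁻¹ * g)) :=
      hasSum_sum_of_ne_finset_zero (fun h hh => by
        rw [Finsupp.notMem_support_iff.mp hh, zero_mul])
    exact h0
  have hdiff := (hid g).sub hmul
  have hb1 : ∀ h, ‖E h * E (h⁻¹ * g) - x.coeff h * x.coeff (h⁻¹ * g)‖ ≤
      tail E F h * ‖E (h⁻¹ * g)‖ + ‖E h‖ * tail E F (h⁻¹ * g) := by
    intro h
    have e : E h * E (h⁻¹ * g) - x.coeff h * x.coeff (h⁻¹ * g) =
        (E h - x.coeff h) * E (h⁻¹ * g) + x.coeff h * (E (h⁻¹ * g) - x.coeff (h⁻¹ * g)) := by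
      noncomm_ring
    rw [e]
    refine (norm_add_le _ _).trans ?_
    refine add_le_add ?_ ?_
    · refine (norm_mul_le _ _).trans ?_
      rw [hnorm]
    · refine (norm_mul_le _ _).trans ?_
      rw [hnorm]
      exact mul_le_mul_of_nonneg_right (hnormx h) (tail_nonneg _ _ _)
  have hbound : ∀ k, ‖E k‖ ≤ ∑' j, ‖E j‖ := fun k => hE.le_tsum k (fun j _ => norm_nonneg _)
  have hsum1 : Summable fun h => tail E F h * ‖E (h⁻¹ * g)‖ := by
    refine Summable.of_nonneg_of_le (fun h => mul_nonneg (tail_nonneg _ _ _) (norm_nonneg _))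
      (fun h => ?_) ((tail_summable E hE F).mul_right (∑' j, ‖E j‖))
    exact mul_le_mul_of_nonneg_left (hbound _) (tail_nonneg _ _ _)
  have htailbound : ∀ k, tail E F k ≤ ∑' j, tail E F j :=
    fun k => (tail_summable E hE F).le_tsum k (fun j _ => tail_nonneg _ _ _)
  have hsum2 : Summable fun h => ‖E h‖ * tail E F (h⁻¹ * g) := by
    refine Summable.of_nonneg_of_le (fun h => mul_nonneg (norm_nonneg _) (tail_nonneg _ _ _))
      (fun h => ?_) (hE.mul_right (∑' j, tail E F j))
    exact mul_le_mul_of_nonneg_left (htailbound _) (norm_nonneg _)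
  have hle := hdiff.norm_le_of_bounded (hsum1.add hsum2).hasSum hb1
  rw [hsum1.tsum_add hsum2] at hle
  have e2 : (defect x).coeff g = -(E g - (x * x).coeff g) + (E g - x.coeff g) := by
    unfold defect
    rw [coeff_sub, Finsupp.sub_apply]
    abel
  rw [e2]
  refine (norm_add_le _ _).trans ?_
  rw [norm_neg, hnorm]
  linarith

/-- Total bound for the defect of a truncation. -/
lemma trunc_defect_le (F : Finset G) :
    size1 (defect (trunc E F)) ≤
      (2 * (∑' g, ‖E g‖) + 1) * ∑' g, tail E F g := by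
  classical
  set x := trunc E F with hx
  set S := (defect x).coeff.support with hS
  set a := ∑' g, ‖E g‖ with ha
  set t := ∑' g, tail E F g with ht
  have htail := tail_summable E hE F
  rw [size1, wsize_eq_sum _ _ (Finset.Subset.refl _)]
  have hbound : ∀ k, ‖E k‖ ≤ a := fun k => hE.le_tsum k (fun j _ => norm_nonneg _)
  have htailbound : ∀ k, tail E F k ≤ t :=
    fun k => htail.le_tsum k (fun j _ => tail_nonneg _ _ _)
  have hsum1 : ∀ g, Summable fun h => tail E F h * ‖E (h⁻¹ * g)‖ := by
    intro g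
    refine Summable.of_nonneg_of_le (fun h => mul_nonneg (tail_nonneg _ _ _) (norm_nonneg _))
      (fun h => ?_) (htail.mul_right a)
    exact mul_le_mul_of_nonneg_left (hbound _) (tail_nonneg _ _ _)
  have hsum2 : ∀ g, Summable fun h => ‖E h‖ * tail E F (h⁻¹ * g) := by
    intro g
    refine Summable.of_nonneg_of_le (fun h => mul_nonneg (norm_nonneg _) (tail_nonneg _ _ _))
      (fun h => ?_) (hE.mul_right t)
    exact mul_le_mul_of_nonneg_left (htailbound _) (norm_nonneg _)
  have step1 : ∑ g ∈ S, (1 : ℝ) * ‖(defect x).coeff g‖ ≤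
      ∑ g ∈ S, ((∑' h, tail E F h * ‖E (h⁻¹ * g)‖) + (∑' h, ‖E h‖ * tail E F (h⁻¹ * g)) +
        tail E F g) := by
    apply Finset.sum_le_sum
    intro g _
    rw [one_mul]
    exact trunc_defect_pointwise E hE hid F g
  have part1 : ∑ g ∈ S, ∑' h, tail E F h * ‖E (h⁻¹ * g)‖ ≤ t * a := by
    rw [← Summable.tsum_finsetSum (fun g _ => hsum1 g), ht, ← tsum_mul_right]
    refine Summable.tsum_le_tsum (fun h => ?_) (summable_sum fun g _ => hsum1 g)
      (htail.mul_right a)
    rw [← Finset.mul_sum]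
    exact mul_le_mul_of_nonneg_left (sum_translate_le (fun _ => norm_nonneg _) hE h S)
      (tail_nonneg _ _ _)
  have part2 : ∑ g ∈ S, ∑' h, ‖E h‖ * tail E F (h⁻¹ * g) ≤ a * t := by
    rw [← Summable.tsum_finsetSum (fun g _ => hsum2 g), ha, ← tsum_mul_right]
    refine Summable.tsum_le_tsum (fun h => ?_) (summable_sum fun g _ => hsum2 g)
      (hE.mul_right _)
    rw [← Finset.mul_sum]
    exact mul_le_mul_of_nonneg_left (sum_translate_le (tail_nonneg _ _) htail h S)
      (norm_nonneg _)
  have part3 : ∑ g ∈ S, tail E F g ≤ t :=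
    htail.sum_le_tsum S (fun g _ => tail_nonneg _ _ _)
  rw [Finset.sum_add_distrib, Finset.sum_add_distrib] at step1
  nlinarith

end Trunc

/-- The vanishing theorem for a summable idempotent function with values in a normed ring with a
bounded trace. -/
theorem vanishing_normedRing (tr : D →+ ℂ) {K : ℝ} (hK0 : 0 ≤ K) (htr_le : ∀ a, ‖tr a‖ ≤ K * ‖a‖)
    (htr_comm : ∀ a b, tr (a * b) = tr (b * a))
    (E : G → D) (hE : Summable fun g => ‖E g‖)
    (hid : ∀ g, HasSum (fun h => E h * E (h⁻¹ * g)) (E g))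
    {g₀ : G} (L : LipHom g₀)
    (hg₀ : L.φ ⟨g₀, by rw [Subgroup.mem_centralizer_singleton_iff]⟩ ≠ 0) :
    (open Classical in ∑' g, (if IsConj g₀ g then tr (E g) else 0)) = 0 := by
  classical
  set θR : ℝ := L.φ ⟨g₀, by rw [Subgroup.mem_centralizer_singleton_iff]⟩ with hθR
  let w : G → ℂ := fun g => if IsConj g₀ g then 1 else 0
  let ψ : G → G → ℂ := fun g h => (L.psi g h : ℂ)
  have hw : ∀ g, ‖w g‖ ≤ 1 := by
    intro g
    simp only [w]
    split_ifs <;> simp
  have hψ1 : ∀ g h, (θR : ℂ) * w (g * h) = ψ g h + ψ h g := by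
    intro g h
    have h1 := L.psi_cocycle g h 1
    rw [L.psi_one, mul_one, one_mul] at h1
    simp only [ψ, w]
    rw [← Complex.ofReal_add, ← h1]
    split_ifs with hc <;> simp [hθR]
  let d : IterData (MonoidAlgebra D G) :=
    { n := size1
      N := wsize L.ℓ
      T := wtrace tr w
      Ψ := kpair tr ψ
      K := K
      θ := (θR : ℂ)
      K_nonneg := hK0
      n_nonneg := wsize_nonneg (fun _ => zero_le_one)
      N_nonneg := wsize_nonneg L.ℓ_nonneg
      n_add := wsize_add (fun _ => zero_le_one)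
      N_add := wsize_add L.ℓ_nonneg
      n_neg := wsize_neg _
      N_neg := wsize_neg _
      n_mul := size1_mul
      N_mul := wsize_leibniz L.ℓ_nonneg L.ℓ_mul
      T_le := wtrace_le tr htr_le hw
      Ψ_le := kpair_le tr hK0 htr_le (ψ := ψ) (ℓ := L.ℓ)
        (fun g h => by simpa [ψ, Complex.norm_real] using L.psi_le g h) L.ℓ_nonneg
      I1 := kpair_I1 tr htr_comm ψ w _ hψ1
      I2 := kpair_I2 tr htr_comm ψ (fun g h k => by
        simp only [ψ]
        rw [← Complex.ofReal_add, L.psi_cocycle]) }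
  have hθ : d.θ ≠ 0 := by
    show (θR : ℂ) ≠ 0
    exact_mod_cast hg₀
  set a := ∑' g, ‖E g‖ with ha
  have ha0 : 0 ≤ a := tsum_nonneg fun _ => norm_nonneg _
  -- the tails go to zero
  have htlim : Tendsto (fun F : Finset G => ∑' g, tail E F g) atTop (𝓝 0) := by
    have h1 : (fun F : Finset G => ∑' g, tail E F g) =
        fun F => a - ∑ g ∈ F, ‖E g‖ := by
      funext F
      exact (tail_hasSum E hE F).tsum_eq
    rw [h1]
    have h2 : Tendsto (fun F : Finset G => ∑ g ∈ F, ‖E g‖) atTop (𝓝 a) := hE.hasSum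
    have h3 := h2.const_sub a
    simpa using h3
  -- the functional on truncations
  have hsumT : Summable fun g => w g * tr (E g) := by
    refine Summable.of_norm_bounded (g := fun g => K * ‖E g‖) (hE.mul_left K) (fun g => ?_)
    rw [norm_mul]
    calc ‖w g‖ * ‖tr (E g)‖ ≤ 1 * (K * ‖E g‖) :=
          mul_le_mul (hw g) (htr_le _) (norm_nonneg _) zero_le_one
      _ = K * ‖E g‖ := one_mul _
  have hTF : ∀ F : Finset G, d.T (trunc E F) = ∑ g ∈ F, w g * tr (E g) := by
    intro F
    show (trunc E F).coeff.sum (fun g a => w g * tr a) = _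
    rw [Finsupp.sum_of_support_subset _ (trunc_support E F) _ (by simp)]
    apply Finset.sum_congr rfl
    intro g hg
    rw [trunc_coeff, if_pos hg]
  have hTlim : Tendsto (fun F : Finset G => d.T (trunc E F)) atTop
      (𝓝 (∑' g, w g * tr (E g))) := by
    simp only [hTF]
    exact hsumT.hasSum
  -- eventual estimate
  set B := 2 * K * ((2 * a + 1) * (3 + 2 * a)) with hB
  have hbdlim : Tendsto (fun F : Finset G => B * ∑' g, tail E F g) atTop (𝓝 0) := by
    have := htlim.const_mul B
    simpa using this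
  have hsmall : ∀ᶠ F : Finset G in atTop,
      (2 * a + 1) * (∑' g, tail E F g) ≤ 1 / 20 ∧
      (2 * a + 1) * (∑' g, tail E F g) * (3 + 2 * a) ≤ 1 / 2 := by
    have h1 : Tendsto (fun F : Finset G => (2 * a + 1) * ∑' g, tail E F g) atTop (𝓝 0) := by
      have := htlim.const_mul (2 * a + 1)
      simpa using this
    have h2 : Tendsto (fun F : Finset G => (2 * a + 1) * (∑' g, tail E F g) * (3 + 2 * a))
        atTop (𝓝 0) := by
      have := h1.mul_const (3 + 2 * a)
      simpa using this
    filter_upwards [h1.eventually (ge_mem_nhds (by norm_num : (0 : ℝ) < 1 / 20)),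
      h2.eventually (ge_mem_nhds (by norm_num : (0 : ℝ) < 1 / 2))] with F h3 h4
    exact ⟨h3, h4⟩
  have hTzero : Tendsto (fun F : Finset G => d.T (trunc E F)) atTop (𝓝 0) := by
    apply squeeze_zero_norm' _ hbdlim
    filter_upwards [hsmall] with F hF
    obtain ⟨h1, h2⟩ := hF
    have hρ : d.n (defect (trunc E F)) ≤ (2 * a + 1) * ∑' g, tail E F g :=
      trunc_defect_le E hE hid F
    have hA : d.n (trunc E F) ≤ a := trunc_size_le E hE F
    have hρ0 : 0 ≤ d.n (defect (trunc E F)) := d.n_nonneg _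
    have hA0 : 0 ≤ d.n (trunc E F) := d.n_nonneg _
    have hfac : 3 + 2 * d.n (trunc E F) ≤ 3 + 2 * a := by linarith
    have hprod : d.n (defect (trunc E F)) * (3 + 2 * d.n (trunc E F)) ≤
        (2 * a + 1) * (∑' g, tail E F g) * (3 + 2 * a) :=
      mul_le_mul hρ hfac (by linarith) (by
        have ht0 : 0 ≤ ∑' g, tail E F g := tsum_nonneg (tail_nonneg _ _)
        positivity)
    have hmain := d.T_le_of_almost_idempotent hθ (trunc E F) (hρ.trans h1) (hprod.trans h2)
    calc ‖d.T (trunc E F)‖ ≤ 2 * d.K * (d.n (defect (trunc E F)) * (3 + 2 * d.n (trunc E F))) :=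
          hmain
      _ ≤ 2 * K * ((2 * a + 1) * (∑' g, tail E F g) * (3 + 2 * a)) :=
          mul_le_mul_of_nonneg_left hprod (by positivity)
      _ = B * ∑' g, tail E F g := by rw [hB]; ring
  have hzero : (∑' g, w g * tr (E g)) = 0 := tendsto_nhds_unique hTlim hTzero
  have hfin : (∑' g, (if IsConj g₀ g then tr (E g) else 0)) = ∑' g, w g * tr (E g) := by
    apply tsum_congr
    intro g
    simp only [w]
    split_ifs <;> simp
  rw [hfin]
  exact hzero

end Vale.Agent.Lib.P184
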