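import Mathlib

/-!
The CAT(0) condition in the form of the Bruhat-Tits CN inequality with midpoints.
-/

namespace Vale.Agent.Lib.P184

/-- A metric space satisfies the Bruhat-Tits inequality if every pair of points `p, q` has a point
`m` with `d(r,m)² ≤ (d(r,p)² + d(r,q)²)/2 - d(p,q)²/4` for all `r`.  Every CAT(0) space satisfies
this, and a complete metric space satisfying this is CAT(0). -/
def IsCATZero (X : Type*) [MetricSpace X] : Prop :=
  ∀ p q : X, ∃ m : X, ∀ r : X, dist r m ^ 2 ≤ (dist r p ^ 2 + dist r q ^ 2) / 2 - dist p q ^ 2 / 4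

end Vale.Agent.Lib.P184
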