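import Vale.Agent.Lib.P184.Main
import Vale.Agent.Lib.P184.Cat0Defs

/-!
Hyperbolic isometries of CAT(0) spaces: a homomorphism on the centralizer from Busemann limits.
-/

namespace Vale.Agent.Lib.P184

open Filter Topology

set_option linter.unusedSectionVars false

variable {G : Type*} [Group G] {X : Type*} [MetricSpace X] [MulAction G X] [IsIsometricSMul G X]

/-- Doubling of the minimal displacement. -/
lemma double_displacement (hX : IsCATZero X) (g : G) {τ : ℝ} (hτ0 : 0 ≤ τ)
    (hτ : ∀ x : X, τ ≤ dist x (g • x)) (x : X) : 2 * τ ≤ dist x ((g * g) • x) := by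
  obtain ⟨m, hm⟩ := hX x (g • x)
  set t := dist x (g • x) with ht
  set D := dist x ((g * g) • x) with hD
  have hD0 : 0 ≤ D := dist_nonneg
  have h1 : dist (g • x) m ^ 2 ≤ t ^ 2 / 4 := by
    have := hm (g • x)
    rw [dist_self, dist_comm (g • x) x] at this
    rw [← ht] at this
    nlinarith
  have h2 : dist ((g * g) • x) m ^ 2 ≤ D ^ 2 / 2 + t ^ 2 / 4 := by
    have := hm ((g * g) • x)
    have e1 : dist ((g * g) • x) x = D := dist_comm _ _
    have e2 : dist ((g * g) • x) (g • x) = t := by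
      rw [mul_smul, dist_smul, dist_comm]
    rw [e1, e2] at this
    nlinarith
  have h3 : dist m (g • m) ^ 2 ≤ D ^ 2 / 4 := by
    have := hm (g⁻¹ • m)
    have e0 : dist (g⁻¹ • m) m = dist m (g • m) := by
      rw [← dist_smul g (g⁻¹ • m) m, smul_inv_smul, dist_comm]
    have e1 : dist (g⁻¹ • m) x = dist (g • x) m := by
      rw [← dist_smul g (g⁻¹ • m) x, smul_inv_smul, dist_comm]
    have e2 : dist (g⁻¹ • m) (g • x) = dist ((g * g) • x) m := by
      rw [← dist_smul g (g⁻¹ • m) (g • x), smul_inv_smul, dist_comm, mul_smul]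
    rw [e0, e1, e2] at this
    nlinarith
  have h4 := hτ m
  have h5 : τ ^ 2 ≤ D ^ 2 / 4 := by
    have : τ ^ 2 ≤ dist m (g • m) ^ 2 := pow_le_pow_left₀ hτ0 h4 2
    linarith
  nlinarith

lemma dist_pow_le (g : G) (x : X) (n : ℕ) :
    dist x ((g ^ n) • x) ≤ n * dist x (g • x) := by
  induction n with
  | zero => simp
  | succ n ih =>
    have h1 : dist x ((g ^ (n + 1)) • x) ≤ dist x ((g ^ n) • x) +
        dist ((g ^ n) • x) ((g ^ (n + 1)) • x) := dist_triangle _ _ _
    have h2 : dist ((g ^ n) • x) ((g ^ (n + 1)) • x) = dist x (g • x) := by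
      rw [pow_succ, mul_smul, dist_smul]
    rw [h2] at h1
    push_cast
    linarith

/-- The displacement of `g ^ 2 ^ k` at a minimal point. -/
lemma displacement_two_pow (hX : IsCATZero X) (g : G) {τ : ℝ} (hτ0 : 0 ≤ τ)
    (hτ : ∀ x : X, τ ≤ dist x (g • x)) (k : ℕ) (x : X) :
    2 ^ k * τ ≤ dist x ((g ^ 2 ^ k) • x) := by
  induction k generalizing x with
  | zero => simpa using hτ x
  | succ k ih =>
    have := double_displacement hX (g ^ 2 ^ k) (τ := 2 ^ k * τ) (by positivity) ih x
    have e : g ^ 2 ^ k * g ^ 2 ^ k = g ^ 2 ^ (k + 1) := by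
      rw [← pow_add]; congr 1; ring
    rw [e] at this
    rw [pow_succ]
    linarith

/-- The axis property: the orbit of a minimal point is geodesic. -/
lemma axis_of_min (hX : IsCATZero X) (g : G) (x₀ : X)
    (hmin : ∀ x : X, dist x₀ (g • x₀) ≤ dist x (g • x)) (n : ℕ) :
    dist x₀ ((g ^ n) • x₀) = n * dist x₀ (g • x₀) := by
  set τ := dist x₀ (g • x₀) with hτdef
  have hτ0 : 0 ≤ τ := dist_nonneg
  apply le_antisymm (dist_pow_le g x₀ n)
  -- choose a large power of two
  have hn : n ≤ 2 ^ n := Nat.lt_two_pow_self.le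
  have h1 := displacement_two_pow hX g hτ0 hmin n x₀
  have h2 : dist x₀ ((g ^ 2 ^ n) • x₀) ≤ dist x₀ ((g ^ n) • x₀) +
      dist ((g ^ n) • x₀) ((g ^ 2 ^ n) • x₀) := dist_triangle _ _ _
  have h3 : dist ((g ^ n) • x₀) ((g ^ 2 ^ n) • x₀) ≤ ((2 ^ n - n : ℕ) : ℝ) * τ := by
    have e : g ^ 2 ^ n = g ^ n * g ^ (2 ^ n - n) := by
      rw [← pow_add]; congr 1; omega
    rw [e, mul_smul, dist_smul]
    exact dist_pow_le g x₀ _
  have h4 : ((2 ^ n - n : ℕ) : ℝ) = 2 ^ n - n := by
    rw [Nat.cast_sub hn]; push_cast; ring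
  rw [h4] at h3
  nlinarith

/-- The four point inequality from the Bruhat-Tits inequality. -/
lemma four_point (hX : IsCATZero X) (a b c d : X) :
    dist a c ^ 2 + dist b d ^ 2 ≤ dist a b ^ 2 + dist b c ^ 2 + dist c d ^ 2 + dist d a ^ 2 := by
  obtain ⟨m, hm⟩ := hX a c
  have h1 := hm b
  have h2 := hm d
  have h3 : dist b d ≤ dist b m + dist d m := by
    have := dist_triangle b m d
    rw [dist_comm m d] at this
    exact this
  have h4 : dist b d ^ 2 ≤ 2 * (dist b m ^ 2 + dist d m ^ 2) := by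
    have hb : 0 ≤ dist b m := dist_nonneg
    have hd : 0 ≤ dist d m := dist_nonneg
    have h0 : 0 ≤ dist b d := dist_nonneg
    nlinarith [sq_nonneg (dist b m - dist d m)]
  rw [dist_comm b a, dist_comm d a, dist_comm d c] at *
  nlinarith

section Busemann

variable (g : G) (τ : ℝ)

/-- The sequence whose limit is the Busemann pairing. -/
noncomputable def bseq (x y : X) (m : ℕ) : ℝ := dist x ((g ^ m) • y) - m * τ

/-- The Busemann pairing. -/
noncomputable def bpair (x y : X) : ℝ := ⨅ m : ℕ, bseq g τ x y m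

/-- `y` is a point on an axis of `g` with translation length `τ`. -/
def IsAxisPt (y : X) : Prop := ∀ n : ℕ, dist y ((g ^ n) • y) = n * τ

variable {g τ}

lemma bseq_ge {y : X} (hy : IsAxisPt g τ y) (x : X) (m : ℕ) : - dist x y ≤ bseq g τ x y m := by
  unfold bseq
  have := dist_triangle y x ((g ^ m) • y)
  rw [hy m, dist_comm y x] at this
  linarith

lemma bseq_anti {y : X} (hy : IsAxisPt g τ y) (x : X) : Antitone (bseq g τ x y) := by
  apply antitone_nat_of_succ_le
  intro m
  unfold bseq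
  have h1 : dist x ((g ^ (m + 1)) • y) ≤ dist x ((g ^ m) • y) +
      dist ((g ^ m) • y) ((g ^ (m + 1)) • y) := dist_triangle _ _ _
  have h2 : dist ((g ^ m) • y) ((g ^ (m + 1)) • y) = τ := by
    rw [pow_succ, mul_smul, dist_smul]
    have := hy 1
    simpa using this
  rw [h2] at h1
  push_cast
  linarith

lemma bseq_bdd {y : X} (hy : IsAxisPt g τ y) (x : X) : BddBelow (Set.range (bseq g τ x y)) :=
  ⟨- dist x y, by
    rintro _ ⟨m, rfl⟩
    exact bseq_ge hy x m⟩

lemma bseq_tendsto {y : X} (hy : IsAxisPt g τ y) (x : X) :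
    Tendsto (bseq g τ x y) atTop (𝓝 (bpair g τ x y)) :=
  tendsto_atTop_ciInf (bseq_anti hy x) (bseq_bdd hy x)

lemma bpair_le {y : X} (hy : IsAxisPt g τ y) (x : X) (m : ℕ) : bpair g τ x y ≤ bseq g τ x y m :=
  ciInf_le (bseq_bdd hy x) m

lemma bpair_abs {y : X} (hy : IsAxisPt g τ y) (x : X) : |bpair g τ x y| ≤ dist x y := by
  rw [abs_le]
  constructor
  · exact le_ciInf fun m => bseq_ge hy x m
  · have := bpair_le hy x 0
    simpa [bseq] using this

/-- Triangle inequality for the Busemann pairing. -/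
lemma bpair_triangle {y y' : X} (hy : IsAxisPt g τ y) (hy' : IsAxisPt g τ y') (x : X) :
    bpair g τ x y' ≤ bpair g τ x y + bpair g τ y y' := by
  have hkm : ∀ k m : ℕ, bpair g τ x y' ≤ bseq g τ x y k + bseq g τ y y' m := by
    intro k m
    refine (bpair_le hy' x (k + m)).trans ?_
    unfold bseq
    have h1 : dist x ((g ^ (k + m)) • y') ≤ dist x ((g ^ k) • y) +
        dist ((g ^ k) • y) ((g ^ (k + m)) • y') := dist_triangle _ _ _
    have h2 : dist ((g ^ k) • y) ((g ^ (k + m)) • y') = dist y ((g ^ m) • y') := by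
      rw [pow_add, mul_smul, dist_smul]
    rw [h2] at h1
    push_cast
    linarith
  have h1 : ∀ m : ℕ, bpair g τ x y' - bseq g τ y y' m ≤ bpair g τ x y := by
    intro m
    refine le_ciInf fun k => ?_
    have := hkm k m
    linarith
  have h2 : bpair g τ x y' - bpair g τ x y ≤ bpair g τ y y' := by
    refine le_ciInf fun m => ?_
    have := h1 m
    linarith
  linarith

/-- The Busemann pairing is antisymmetric on axis points. -/
lemma bpair_antisymm (hX : IsCATZero X) (hτ : 0 < τ) {x y : X} (hx : IsAxisPt g τ x)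
    (hy : IsAxisPt g τ y) : bpair g τ x y + bpair g τ y x = 0 := by
  set δ := dist x y with hδ
  have hlim : Tendsto (fun m => bseq g τ x y m + bseq g τ y x m) atTop
      (𝓝 (bpair g τ x y + bpair g τ y x)) := (bseq_tendsto hy x).add (bseq_tendsto hx y)
  -- lower bound for the terms
  have hlow : ∀ m : ℕ, 0 ≤ bseq g τ x y m + bseq g τ y x m := by
    intro m
    unfold bseq
    have h1 := hx (m + m)
    have h2 : dist x ((g ^ (m + m)) • x) ≤ dist x ((g ^ m) • y) +
        dist ((g ^ m) • y) ((g ^ (m + m)) • x) := dist_triangle _ _ _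
    have h3 : dist ((g ^ m) • y) ((g ^ (m + m)) • x) = dist y ((g ^ m) • x) := by
      rw [pow_add, mul_smul, dist_smul]
    rw [h3, h1] at h2
    push_cast at h2
    linarith
  -- upper bound for the terms
  have hup : ∀ m : ℕ, 1 ≤ m →
      bseq g τ x y m + bseq g τ y x m ≤ δ ^ 2 * (1 / τ) * (1 / (m : ℝ)) := by
    intro m hm
    have hm' : (1 : ℝ) ≤ m := by exact_mod_cast hm
    have hmpos : (0 : ℝ) < m := by linarith
    have h4 := four_point hX x y ((g ^ m) • y) ((g ^ m) • x)
    have e1 : dist y ((g ^ m) • y) = m * τ := hy m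
    have e2 : dist ((g ^ m) • y) ((g ^ m) • x) = δ := by
      rw [dist_smul, dist_comm]
    have e3 : dist ((g ^ m) • x) x = m * τ := by
      rw [dist_comm]; exact hx m
    rw [e1, e2, e3] at h4
    rw [← hδ] at h4
    set a := dist x ((g ^ m) • y) with ha
    set c := dist y ((g ^ m) • x) with hc
    have ha0 : 0 ≤ a := dist_nonneg
    have hc0 : 0 ≤ c := dist_nonneg
    have hu0 := hlow m
    unfold bseq at hu0 ⊢
    rw [← ha, ← hc] at hu0 ⊢
    set u := a - m * τ + (c - m * τ) with hu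
    have hsum : a + c = u + 2 * (m * τ) := by rw [hu]; ring
    have h5 : (a + c) ^ 2 ≤ 2 * (a ^ 2 + c ^ 2) := by nlinarith [sq_nonneg (a - c)]
    have h6 : (u + 2 * (m * τ)) ^ 2 ≤ 4 * (m * τ) ^ 2 + 4 * δ ^ 2 := by
      rw [← hsum]; nlinarith
    have h7 : 4 * (m * τ) * u ≤ 4 * δ ^ 2 := by nlinarith [sq_nonneg u]
    have hmτ : 0 < (m : ℝ) * τ := mul_pos hmpos hτ
    have e4 : δ ^ 2 * (1 / τ) * (1 / (m : ℝ)) = δ ^ 2 / (m * τ) := by
      field_simp
    rw [e4, le_div_iff₀ hmτ]
    nlinarith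
  have hupper : Tendsto (fun m : ℕ => δ ^ 2 * (1 / τ) * (1 / (m : ℝ))) atTop (𝓝 0) := by
    have := (tendsto_one_div_atTop_nhds_zero_nat (𝕜 := ℝ)).const_mul (δ ^ 2 * (1 / τ))
    simpa using this
  apply le_antisymm
  · exact le_of_tendsto_of_tendsto hlim hupper
      (Filter.eventually_atTop.mpr ⟨1, fun m hm => hup m hm⟩)
  · exact ge_of_tendsto' hlim hlow

/-- Additivity of the Busemann pairing on axis points. -/
lemma bpair_add (hX : IsCATZero X) (hτ : 0 < τ) {x y z : X} (hx : IsAxisPt g τ x)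
    (hy : IsAxisPt g τ y) (hz : IsAxisPt g τ z) :
    bpair g τ x z = bpair g τ x y + bpair g τ y z := by
  apply le_antisymm (bpair_triangle hy hz x)
  have h1 := bpair_triangle (x := z) hy hx
  have h2 := bpair_antisymm hX hτ hz hx
  have h3 := bpair_antisymm hX hτ hz hy
  have h4 := bpair_antisymm hX hτ hy hx
  linarith

/-- Invariance of the pairing under elements commuting with `g`. -/
lemma bpair_smul {z : G} (hz : Commute g z) (x y : X) :
    bpair g τ (z • x) (z • y) = bpair g τ x y := by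
  unfold bpair
  congr 1
  funext m
  unfold bseq
  have e : (g ^ m) • z • y = z • (g ^ m) • y := by
    rw [← mul_smul, ← mul_smul, (hz.pow_left m).eq]
  rw [e, dist_smul]

lemma isAxisPt_smul {z : G} (hz : Commute g z) {y : X} (hy : IsAxisPt g τ y) :
    IsAxisPt g τ (z • y) := by
  intro n
  have e : (g ^ n) • z • y = z • (g ^ n) • y := by
    rw [← mul_smul, ← mul_smul, (hz.pow_left n).eq]
  rw [e, dist_smul]
  exact hy n

end Busemann

section Main

variable {q : ℕ} {e : Fin q → Fin q → G → ℂ}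

/-- **Hyperbolic isometries.** If `G` acts by isometries on a CAT(0) space and the displacement of
`g₀` attains a positive minimum, then the Hattori-Stallings coefficient at the class of `g₀` of any
idempotent matrix over `ℓ¹(G)` vanishes. -/
theorem hsCoeff_eq_zero_of_hyperbolic (hX : IsCATZero X) (he : IsL1Idempotent e) {g₀ : G} (x₀ : X)
    (hmin : ∀ x : X, dist x₀ (g₀ • x₀) ≤ dist x (g₀ • x)) (hpos : 0 < dist x₀ (g₀ • x₀)) :
    hsCoeff e g₀ = 0 := by
  set τ := dist x₀ (g₀ • x₀) with hτdef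
  have haxis : IsAxisPt g₀ τ x₀ := fun n => axis_of_min hX g₀ x₀ hmin n
  have hcomm : ∀ z : Subgroup.centralizer ({g₀} : Set G), Commute g₀ (z : G) := by
    intro z
    have := (Subgroup.mem_centralizer_singleton_iff).mp z.2
    exact this.symm
  have hax : ∀ z : Subgroup.centralizer ({g₀} : Set G), IsAxisPt g₀ τ ((z : G) • x₀) :=
    fun z => isAxisPt_smul (hcomm z) haxis
  refine hsCoeff_eq_zero he (fun h => dist x₀ (h • x₀)) (fun _ => dist_nonneg) ?_ ?_
    (fun z => bpair g₀ τ x₀ ((z : G) • x₀)) ?_ ?_ ?_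
  · intro h k
    have h1 := dist_triangle x₀ (h • x₀) ((h * k) • x₀)
    have h2 : dist (h • x₀) ((h * k) • x₀) = dist x₀ (k • x₀) := by
      rw [mul_smul, dist_smul]
    rw [h2] at h1
    exact h1
  · intro h
    show dist x₀ (h⁻¹ • x₀) = dist x₀ (h • x₀)
    rw [← dist_smul h x₀ (h⁻¹ • x₀), smul_inv_smul, dist_comm]
  · intro z z'
    have h1 := bpair_add hX hpos haxis (hax z) (hax (z * z'))
    have h2 : bpair g₀ τ ((z : G) • x₀) (((z * z' : Subgroup.centralizer ({g₀} : Set G)) : G) • x₀) =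
        bpair g₀ τ x₀ ((z' : G) • x₀) := by
      have : ((z * z' : Subgroup.centralizer ({g₀} : Set G)) : G) • x₀ =
          (z : G) • (z' : G) • x₀ := by
        rw [Subgroup.coe_mul, mul_smul]
      rw [this, bpair_smul (hcomm z)]
    rw [h1, h2]
  · intro z
    exact bpair_abs (hax z) x₀
  · -- the value at `g₀` is the translation length
    have hval : bpair g₀ τ x₀ (g₀ • x₀) = τ := by
      unfold bpair
      have : bseq g₀ τ x₀ (g₀ • x₀) = fun _ => τ := by
        funext m
        unfold bseq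
        have e : (g₀ ^ m) • g₀ • x₀ = (g₀ ^ (m + 1)) • x₀ := by
          rw [pow_succ, mul_smul]
        rw [e, haxis (m + 1)]
        push_cast
        ring
      rw [this]
      simp
    show bpair g₀ τ x₀ (g₀ • x₀) ≠ 0
    rw [hval]
    exact hpos.ne'

end Main

end Vale.Agent.Lib.P184
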