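import Vale.Agent.Lib.P184.Cat0

/-!
Groups acting properly and cocompactly on CAT(0) spaces satisfy the `ℓ¹` Bass statement.
-/

namespace Vale.Agent.Lib.P184

open Filter Topology

set_option linter.unusedSectionVars false

variable {G : Type*} [Group G] {X : Type*} [MetricSpace X] [MulAction G X] [IsIsometricSMul G X]

/-- Displacement under a conjugate. -/
lemma dist_conj_smul (a g : G) (x : X) :
    dist (a • x) ((a * g * a⁻¹) • (a • x)) = dist x (g • x) := by
  have : (a * g * a⁻¹) • (a • x) = a • (g • x) := by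
    simp [mul_smul]
  rw [this, dist_smul]

/-- Finiteness of the set of elements displacing some point of `K` by a bounded amount. -/
lemma finite_displacing (hproper : ∀ (x : X) (r : ℝ), {g : G | dist x (g • x) ≤ r}.Finite)
    {K : Set X} (hK : IsCompact K) (c : ℝ) :
    {h : G | ∃ y ∈ K, dist y (h • y) ≤ c}.Finite := by
  by_cases hne : K.Nonempty
  · obtain ⟨k₀, _⟩ := hne
    obtain ⟨R, hR⟩ := hK.isBounded.subset_closedBall k₀
    refine (hproper k₀ (R + c + R)).subset ?_
    rintro h ⟨y, hy, hd⟩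
    have h1 : dist y k₀ ≤ R := hR hy
    have h2 : dist k₀ (h • k₀) ≤ dist k₀ y + dist y (h • y) + dist (h • y) (h • k₀) :=
      dist_triangle4 _ _ _ _
    rw [dist_smul, dist_comm k₀ y] at h2
    show dist k₀ (h • k₀) ≤ R + c + R
    linarith
  · rw [Set.not_nonempty_iff_eq_empty] at hne
    simp [hne]

/-- In a proper cocompact action the displacement of every element attains its minimum. -/
lemma exists_min_displacement (hproper : ∀ (x : X) (r : ℝ), {g : G | dist x (g • x) ≤ r}.Finite)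
    {K : Set X} (hK : IsCompact K) (hcocpt : ∀ x : X, ∃ g : G, g • x ∈ K) [Nonempty X] (g : G) :
    ∃ x₀ : X, ∀ x : X, dist x₀ (g • x₀) ≤ dist x (g • x) := by
  classical
  obtain ⟨x₁⟩ := ‹Nonempty X›
  set c := dist x₁ (g • x₁) with hc
  -- the candidates: conjugates of `g` moving a point of `K` by at most `c`
  let A : Set G := {h | IsConj g h ∧ ∃ y ∈ K, dist y (h • y) ≤ c}
  have hAfin : A.Finite := (finite_displacing hproper hK c).subset fun h hh => hh.2
  obtain ⟨b₁, hb₁⟩ := hcocpt x₁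
  have hh₁ : (b₁ * g * b₁⁻¹) ∈ A := by
    refine ⟨isConj_iff.mpr ⟨b₁, rfl⟩, b₁ • x₁, hb₁, ?_⟩
    rw [dist_conj_smul]
  have hKne : K.Nonempty := ⟨_, hb₁⟩
  have hmin : ∀ h : G, ∃ y ∈ K, ∀ y' ∈ K, dist y (h • y) ≤ dist y' (h • y') := by
    intro h
    have hcont : ContinuousOn (fun y : X => dist y (h • y)) K :=
      (continuous_id.dist (continuous_const_smul h)).continuousOn
    obtain ⟨y, hy, hy'⟩ := hK.exists_isMinOn hKne hcont
    exact ⟨y, hy, fun y' hy'' => hy' hy''⟩
  choose m hmK hm using hmin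
  obtain ⟨hs, hsA, hsmin⟩ := Set.exists_min_image A (fun h => dist (m h) (h • m h)) hAfin ⟨_, hh₁⟩
  obtain ⟨a, ha⟩ := isConj_iff.mp hsA.1
  refine ⟨a⁻¹ • m hs, ?_⟩
  have hval : dist (a⁻¹ • m hs) (g • a⁻¹ • m hs) = dist (m hs) (hs • m hs) := by
    have := dist_conj_smul a g (a⁻¹ • m hs)
    rw [smul_inv_smul, ha] at this
    exact this.symm
  have hsle : dist (m hs) (hs • m hs) ≤ c := by
    obtain ⟨y, hy, hd⟩ := hsA.2
    exact (hm hs y hy).trans hd
  intro x
  rw [hval]
  by_cases hx : dist x (g • x) ≤ c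
  · obtain ⟨b, hb⟩ := hcocpt x
    have hbA : (b * g * b⁻¹) ∈ A := by
      refine ⟨isConj_iff.mpr ⟨b, rfl⟩, b • x, hb, ?_⟩
      rw [dist_conj_smul]
      exact hx
    refine (hsmin _ hbA).trans ?_
    refine (hm _ (b • x) hb).trans ?_
    rw [dist_conj_smul]
  · have hx' := not_le.mp hx
    linarith

/-- A minimal point of an element of finite order is fixed. -/
lemma fixed_of_finOrder (hX : IsCATZero X) {g : G} (hg : IsOfFinOrder g) {x₀ : X}
    (hmin : ∀ x : X, dist x₀ (g • x₀) ≤ dist x (g • x)) : dist x₀ (g • x₀) = 0 := by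
  obtain ⟨n, hn, hgn⟩ := hg.exists_pow_eq_one
  have h1 := axis_of_min hX g x₀ hmin n
  rw [hgn, one_smul, dist_self] at h1
  have hn' : (n : ℝ) ≠ 0 := by exact_mod_cast hn.ne'
  have := mul_eq_zero.mp h1.symm
  rcases this with h | h
  · exact absurd h hn'
  · exact h

/-- An element with a fixed point has finite order in a proper action. -/
lemma finOrder_of_fixed (hproper : ∀ (x : X) (r : ℝ), {g : G | dist x (g • x) ≤ r}.Finite)
    {g : G} {x₀ : X} (h : dist x₀ (g • x₀) = 0) : IsOfFinOrder g := by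
  by_contra hg
  have hinj : Function.Injective (fun n : ℕ => g ^ n) := injective_pow_iff_not_isOfFinOrder.mpr hg
  have hfix : g • x₀ = x₀ := (dist_eq_zero.mp h).symm
  have hpow : ∀ n : ℕ, (g ^ n) • x₀ = x₀ := by
    intro n
    induction n with
    | zero => simp
    | succ n ih => rw [pow_succ, mul_smul, hfix, ih]
  refine Set.infinite_of_injective_forall_mem hinj (s := {g : G | dist x₀ (g • x₀) ≤ 0}) ?_
    (hproper x₀ 0)
  intro n
  show dist x₀ ((g ^ n) • x₀) ≤ 0
  rw [hpow, dist_self]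

/-- **The `ℓ¹` Bass statement for CAT(0) groups.** -/
theorem bass_of_proper_cocompact (hX : IsCATZero X) [Nonempty X]
    (hproper : ∀ (x : X) (r : ℝ), {g : G | dist x (g • x) ≤ r}.Finite)
    {K : Set X} (hK : IsCompact K) (hcocpt : ∀ x : X, ∃ g : G, g • x ∈ K)
    {q : ℕ} {e : Fin q → Fin q → G → ℂ} (he : IsL1Idempotent e) :
    ∃ F : Set (ConjClasses G), F.Finite ∧ (∀ C ∈ F, ∃ g, ConjClasses.mk g = C ∧ IsOfFinOrder g) ∧
      ∀ g : G, ConjClasses.mk g ∉ F → hsCoeff e g = 0 := by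
  classical
  refine ⟨ConjClasses.mk '' {g : G | IsOfFinOrder g}, ?_, ?_, ?_⟩
  · -- finitely many classes of elements of finite order
    have hfin := (finite_displacing (G := G) hproper hK 0).image ConjClasses.mk
    refine hfin.subset ?_
    rintro _ ⟨g, hg, rfl⟩
    obtain ⟨x₀, hx₀⟩ := exists_min_displacement hproper hK hcocpt g
    have h0 := fixed_of_finOrder hX hg hx₀
    obtain ⟨b, hb⟩ := hcocpt x₀
    refine ⟨b * g * b⁻¹, ⟨b • x₀, hb, ?_⟩, ?_⟩
    · rw [dist_conj_smul, h0]
    · rw [ConjClasses.mk_eq_mk_iff_isConj]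
      exact (isConj_iff.mpr ⟨b, rfl⟩).symm
  · rintro _ ⟨g, hg, rfl⟩
    exact ⟨g, rfl, hg⟩
  · intro g hg
    have hnf : ¬ IsOfFinOrder g := fun h => hg ⟨g, h, rfl⟩
    obtain ⟨x₀, hx₀⟩ := exists_min_displacement hproper hK hcocpt g
    have hpos : 0 < dist x₀ (g • x₀) := by
      rcases (dist_nonneg (x := x₀) (y := g • x₀)).lt_or_eq with h | h
      · exact h
      · exact absurd (finOrder_of_fixed hproper h.symm) hnf
    exact hsCoeff_eq_zero_of_hyperbolic hX he x₀ hx₀ hpos

end Vale.Agent.Lib.P184
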