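import Vale.Agent.Lib.P184.Ring

/-!
From a Lipschitz homomorphism on a centralizer to the kernel `ψ` on pairs of group elements.
-/

namespace Vale.Agent.Lib.P184

set_option linter.unusedSectionVars false

variable {G : Type*} [Group G]

/-- A length function on `G` and a homomorphism on the centralizer of `g₀` dominated by it. -/
structure LipHom (g₀ : G) where
  ℓ : G → ℝ
  φ : Subgroup.centralizer ({g₀} : Set G) → ℝ
  ℓ_nonneg : ∀ g, 0 ≤ ℓ g
  ℓ_mul : ∀ g h, ℓ (g * h) ≤ ℓ g + ℓ h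
  ℓ_inv : ∀ g, ℓ g⁻¹ = ℓ g
  φ_mul : ∀ z z', φ (z * z') = φ z + φ z'
  φ_le : ∀ z, |φ z| ≤ ℓ (z : G)

namespace LipHom

variable {g₀ : G} (L : LipHom g₀)

lemma φ_one : L.φ 1 = 0 := by
  have := L.φ_mul 1 1
  rw [one_mul] at this
  linarith

lemma φ_inv (z) : L.φ z⁻¹ = - L.φ z := by
  have := L.φ_mul z⁻¹ z
  rw [inv_mul_cancel, L.φ_one] at this
  linarith

/-- The inf-convolution extension of `φ` to all of `G`. -/
noncomputable def bfun (x : G) : ℝ :=
  ⨅ z : Subgroup.centralizer ({g₀} : Set G), (L.φ z + L.ℓ ((z : G)⁻¹ * x))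

lemma bdd (x : G) :
    BddBelow (Set.range fun z : Subgroup.centralizer ({g₀} : Set G) =>
      L.φ z + L.ℓ ((z : G)⁻¹ * x)) := by
  refine ⟨- L.ℓ x⁻¹, ?_⟩
  rintro _ ⟨z, rfl⟩
  have h1 := L.φ_le z⁻¹
  have h2 : L.ℓ ((z : G)⁻¹) ≤ L.ℓ ((z : G)⁻¹ * x) + L.ℓ x⁻¹ := by
    have := L.ℓ_mul ((z : G)⁻¹ * x) x⁻¹
    simpa using this
  have h3 := (abs_le.mp h1).2
  rw [L.φ_inv] at h3
  simp only [Subgroup.coe_inv] at h3
  show - L.ℓ x⁻¹ ≤ L.φ z + L.ℓ ((z : G)⁻¹ * x)
  linarith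

lemma bfun_le (x : G) (z) : L.bfun x ≤ L.φ z + L.ℓ ((z : G)⁻¹ * x) :=
  ciInf_le (L.bdd x) z

lemma le_bfun (x : G) {c : ℝ} (h : ∀ z : Subgroup.centralizer ({g₀} : Set G),
    c ≤ L.φ z + L.ℓ ((z : G)⁻¹ * x)) : c ≤ L.bfun x :=
  le_ciInf h

lemma bfun_mul_le (z₀ : Subgroup.centralizer ({g₀} : Set G)) (x : G) :
    L.bfun ((z₀ : G) * x) ≤ L.φ z₀ + L.bfun x := by
  have : L.bfun ((z₀ : G) * x) - L.φ z₀ ≤ L.bfun x := by
    apply L.le_bfun
    intro z
    have h := L.bfun_le ((z₀ : G) * x) (z₀ * z)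
    have e : (((z₀ * z : Subgroup.centralizer ({g₀} : Set G)) : G))⁻¹ * ((z₀ : G) * x) =
        (z : G)⁻¹ * x := by
      simp only [Subgroup.coe_mul]
      group
    rw [e, L.φ_mul] at h
    linarith
  linarith

/-- Equivariance of the extension under the centralizer. -/
lemma bfun_mul (z₀ : Subgroup.centralizer ({g₀} : Set G)) (x : G) :
    L.bfun ((z₀ : G) * x) = L.φ z₀ + L.bfun x := by
  apply le_antisymm (L.bfun_mul_le z₀ x)
  have h := L.bfun_mul_le z₀⁻¹ ((z₀ : G) * x)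
  have e : ((z₀⁻¹ : Subgroup.centralizer ({g₀} : Set G)) : G) * ((z₀ : G) * x) = x := by
    simp only [Subgroup.coe_inv]
    group
  rw [e, L.φ_inv] at h
  linarith

lemma bfun_mul_right_le (x h : G) : L.bfun (x * h) ≤ L.bfun x + L.ℓ h := by
  have : L.bfun (x * h) - L.ℓ h ≤ L.bfun x := by
    apply L.le_bfun
    intro z
    have h1 := L.bfun_le (x * h) z
    have h2 := L.ℓ_mul ((z : G)⁻¹ * x) h
    have e : (z : G)⁻¹ * (x * h) = (z : G)⁻¹ * x * h := by group
    rw [e] at h1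
    linarith
  linarith

/-- The extension is Lipschitz for right translations. -/
lemma bfun_lip (x h : G) : |L.bfun (x * h) - L.bfun x| ≤ L.ℓ h := by
  rw [abs_le]
  constructor
  · have h1 := L.bfun_mul_right_le (x * h) h⁻¹
    have e : x * h * h⁻¹ = x := by group
    rw [e, L.ℓ_inv] at h1
    linarith
  · have := L.bfun_mul_right_le x h
    linarith

/-- A chosen conjugator of `g₀` to `g`, when `g` is conjugate to `g₀`. -/
noncomputable def conjr (g : G) : G :=
  open Classical in if h : IsConj g₀ g then Classical.choose (isConj_iff.mp h) else 1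

lemma conjr_spec {g : G} (h : IsConj g₀ g) : conjr (g₀ := g₀) g * g₀ * (conjr (g₀ := g₀) g)⁻¹ = g := by
  classical
  unfold conjr
  rw [dif_pos h]
  exact Classical.choose_spec (isConj_iff.mp h)

/-- The kernel on pairs of group elements. -/
noncomputable def psi (g h : G) : ℝ :=
  open Classical in
  if IsConj g₀ (g * h) then
    L.bfun ((conjr (g₀ := g₀) (g * h))⁻¹ * g) - L.bfun (conjr (g₀ := g₀) (g * h))⁻¹
  else 0

lemma psi_le (g h : G) : ‖L.psi g h‖ ≤ L.ℓ g := by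
  classical
  unfold psi
  split_ifs with hc
  · rw [Real.norm_eq_abs]
    exact L.bfun_lip _ g
  · simpa using L.ℓ_nonneg g

/-- The basic identity for the kernel. -/
lemma psi_cocycle (g h k : G) : L.psi (g * h) k = L.psi g (h * k) + L.psi h (k * g) := by
  classical
  have e1 : g * h * k = g * (h * k) := by group
  have e2 : h * (k * g) = g⁻¹ * (g * h * k) * g := by group
  have hiff : IsConj g₀ (g * h * k) ↔ IsConj g₀ (h * (k * g)) := by
    constructor
    · intro hc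
      refine hc.trans ?_
      rw [isConj_iff]
      exact ⟨g⁻¹, by group⟩
    · intro hc
      refine hc.trans ?_
      rw [isConj_iff]
      exact ⟨g, by group⟩
  unfold psi
  by_cases hc : IsConj g₀ (g * h * k)
  · have hc1 : IsConj g₀ (g * (h * k)) := by rwa [← e1]
    have hc2 : IsConj g₀ (h * (k * g)) := hiff.mp hc
    rw [if_pos hc, if_pos hc1, if_pos hc2, ← e1]
    set γ := conjr (g₀ := g₀) (g * h * k) with hγ
    set γ' := conjr (g₀ := g₀) (h * (k * g)) with hγ'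
    have s1 : γ * g₀ * γ⁻¹ = g * h * k := conjr_spec hc
    have s2 : γ' * g₀ * γ'⁻¹ = h * (k * g) := conjr_spec hc2
    -- the connecting element of the centralizer
    have hz : γ'⁻¹ * g⁻¹ * γ ∈ Subgroup.centralizer ({g₀} : Set G) := by
      rw [Subgroup.mem_centralizer_singleton_iff]
      have s1' : γ * g₀ = g * h * k * γ := by
        rw [← s1]; group
      have s2' : γ'⁻¹ * (h * (k * g)) = g₀ * γ'⁻¹ := by
        rw [← s2]; group
      calc γ'⁻¹ * g⁻¹ * γ * g₀ = γ'⁻¹ * g⁻¹ * (γ * g₀) := by group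
        _ = γ'⁻¹ * g⁻¹ * (g * h * k * γ) := by rw [s1']
        _ = γ'⁻¹ * (h * (k * g)) * (g⁻¹ * γ) := by group
        _ = g₀ * (γ'⁻¹ * g⁻¹ * γ) := by rw [s2']; group
    set z : Subgroup.centralizer ({g₀} : Set G) := ⟨γ'⁻¹ * g⁻¹ * γ, hz⟩ with hzdef
    have c1 : γ'⁻¹ * h = (z : G) * (γ⁻¹ * (g * h)) := by
      simp only [hzdef]; group
    have c2 : γ'⁻¹ = (z : G) * (γ⁻¹ * g) := by
      simp only [hzdef]; group
    rw [c1, L.bfun_mul]
    rw [c2, L.bfun_mul]
    ring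
  · have hc1 : ¬ IsConj g₀ (g * (h * k)) := by rwa [← e1]
    have hc2 : ¬ IsConj g₀ (h * (k * g)) := fun hh => hc (hiff.mpr hh)
    rw [if_neg hc, if_neg hc1, if_neg hc2]
    simp

/-- The value of the kernel at `(g, 1)`. -/
lemma psi_one (g : G) :
    L.psi g 1 = (open Classical in if IsConj g₀ g then L.φ ⟨g₀, by
      rw [Subgroup.mem_centralizer_singleton_iff]⟩ else 0) := by
  classical
  unfold psi
  rw [mul_one]
  by_cases hc : IsConj g₀ g
  · rw [if_pos hc, if_pos hc]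
    set γ := conjr (g₀ := g₀) g with hγ
    have s : γ * g₀ * γ⁻¹ = g := conjr_spec hc
    have e : γ⁻¹ * g = g₀ * γ⁻¹ := by rw [← s]; group
    rw [e]
    have := L.bfun_mul ⟨g₀, by rw [Subgroup.mem_centralizer_singleton_iff]⟩ γ⁻¹
    simp only at this
    rw [this]
    ring
  · rw [if_neg hc, if_neg hc]

end LipHom

end Vale.Agent.Lib.P184
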