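import Mathlib

/-!
Statement level definitions for the `ℓ¹` Bass problem.
-/

namespace Vale.Agent.Lib.P184

variable {G : Type*} [Group G]

/-- `e` is an idempotent `q × q` matrix over `ℓ¹(G)`: each entry is an absolutely summable function
on `G`, and `e * e = e` for the matrix convolution
`(e * e) i j g = ∑ k, ∑' h, e i k h * e k j (h⁻¹ * g)`. -/
structure IsL1Idempotent {q : ℕ} (e : Fin q → Fin q → G → ℂ) : Prop where
  summable : ∀ i j, Summable fun g => ‖e i j g‖
  idem : ∀ i j g, ∑ k, ∑' h, e i k h * e k j (h⁻¹ * g) = e i j g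

/-- The coefficient at the conjugacy class of `g₀` of the Hattori-Stallings trace of `e`:
the sum over `g` in the class of `∑ i, e i i g`. -/
noncomputable def hsCoeff {q : ℕ} (e : Fin q → Fin q → G → ℂ) (g₀ : G) : ℂ :=
  ∑' g : {g : G // IsConj g₀ g}, ∑ i, e i i (g : G)

end Vale.Agent.Lib.P184
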