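import Mathlib

/-!
Abstract iteration argument: in a ring with a submultiplicative size `n` and a differential
size `N`, a functional `T` that is controlled by a pair of cochain identities vanishes
approximately on almost idempotent elements.
-/

namespace Vale.Agent.Lib.P184

section Iter

variable {R : Type*} [Ring R]

/-- One step of the idempotent improving iteration `y ↦ 3 y^2 - 2 y^3`. -/
def stepR (y : R) : R := y + (y * y - y) - (y * (y * y - y) + y * (y * y - y))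

/-- The defect of `y` from being idempotent. -/
def defect (y : R) : R := y * y - y

lemma defect_step (y : R) :
    defect (stepR y) =
      defect y * defect y * defect y + defect y * defect y * defect y +
        defect y * defect y * defect y + defect y * defect y * defect y -
        (defect y * defect y + defect y * defect y + defect y * defect y) := by
  unfold defect stepR
  noncomm_ring

/-- Iterates of the improvement step. -/
def iterR (x₀ : R) : ℕ → R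
  | 0 => x₀
  | k + 1 => stepR (iterR x₀ k)

/-- The data of sizes and functionals the iteration uses. -/
structure IterData (R : Type*) [Ring R] where
  n : R → ℝ
  N : R → ℝ
  T : R →+ ℂ
  Ψ : R →+ R →+ ℂ
  K : ℝ
  θ : ℂ
  K_nonneg : 0 ≤ K
  n_nonneg : ∀ x, 0 ≤ n x
  N_nonneg : ∀ x, 0 ≤ N x
  n_add : ∀ x y, n (x + y) ≤ n x + n y
  N_add : ∀ x y, N (x + y) ≤ N x + N y
  n_neg : ∀ x, n (-x) = n x
  N_neg : ∀ x, N (-x) = N x
  n_mul : ∀ x y, n (x * y) ≤ n x * n y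
  N_mul : ∀ x y, N (x * y) ≤ N x * n y + n x * N y
  T_le : ∀ x, ‖T x‖ ≤ K * n x
  Ψ_le : ∀ x y, ‖Ψ x y‖ ≤ K * (N x * n y)
  I1 : ∀ x y, θ * T (x * y) = Ψ x y + Ψ y x
  I2 : ∀ x y z, Ψ (x * y) z = Ψ x (y * z) + Ψ y (z * x)

namespace IterData

variable (d : IterData R)
include d

lemma n_sub (x y : R) : d.n (x - y) ≤ d.n x + d.n y := by
  rw [sub_eq_add_neg]
  calc d.n (x + -y) ≤ d.n x + d.n (-y) := d.n_add _ _
    _ = d.n x + d.n y := by rw [d.n_neg]

lemma N_sub (x y : R) : d.N (x - y) ≤ d.N x + d.N y := by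
  rw [sub_eq_add_neg]
  calc d.N (x + -y) ≤ d.N x + d.N (-y) := d.N_add _ _
    _ = d.N x + d.N y := by rw [d.N_neg]

lemma n_defect_step (y : R) :
    d.n (defect (stepR y)) ≤
      4 * d.n (defect y) ^ 3 + 3 * d.n (defect y) ^ 2 := by
  rw [defect_step]
  set r := defect y
  have h2 : d.n (r * r) ≤ d.n r ^ 2 := by
    have := d.n_mul r r
    nlinarith
  have h3 : d.n (r * r * r) ≤ d.n r ^ 3 := by
    have h := d.n_mul (r * r) r
    have hr := d.n_nonneg r
    have : d.n (r * r) * d.n r ≤ d.n r ^ 2 * d.n r :=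
      mul_le_mul_of_nonneg_right h2 hr
    nlinarith
  have h4 := d.n_sub (r * r * r + r * r * r + r * r * r + r * r * r) (r * r + r * r + r * r)
  have h5 := d.n_add (r * r * r + r * r * r + r * r * r) (r * r * r)
  have h6 := d.n_add (r * r * r + r * r * r) (r * r * r)
  have h7 := d.n_add (r * r * r) (r * r * r)
  have h8 := d.n_add (r * r + r * r) (r * r)
  have h9 := d.n_add (r * r) (r * r)
  linarith

lemma N_defect_step (y : R) :
    d.N (defect (stepR y)) ≤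
      (12 * d.n (defect y) ^ 2 + 6 * d.n (defect y)) * d.N (defect y) := by
  rw [defect_step]
  set r := defect y
  have hr := d.n_nonneg r
  have hν := d.N_nonneg r
  have hn2 : d.n (r * r) ≤ d.n r ^ 2 := by
    have := d.n_mul r r
    nlinarith
  have h2 : d.N (r * r) ≤ 2 * d.n r * d.N r := by
    have := d.N_mul r r
    nlinarith
  have h3 : d.N (r * r * r) ≤ 3 * d.n r ^ 2 * d.N r := by
    have h := d.N_mul (r * r) r
    have h' : d.N (r * r) * d.n r ≤ (2 * d.n r * d.N r) * d.n r :=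
      mul_le_mul_of_nonneg_right h2 hr
    have h'' : d.n (r * r) * d.N r ≤ d.n r ^ 2 * d.N r :=
      mul_le_mul_of_nonneg_right hn2 hν
    nlinarith
  have h4 := d.N_sub (r * r * r + r * r * r + r * r * r + r * r * r) (r * r + r * r + r * r)
  have h5 := d.N_add (r * r * r + r * r * r + r * r * r) (r * r * r)
  have h6 := d.N_add (r * r * r + r * r * r) (r * r * r)
  have h7 := d.N_add (r * r * r) (r * r * r)
  have h8 := d.N_add (r * r + r * r) (r * r)
  have h9 := d.N_add (r * r) (r * r)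
  nlinarith

lemma n_step (y : R) :
    d.n (stepR y) ≤ d.n y + d.n (defect y) * (1 + 2 * d.n y) := by
  show d.n (y + defect y - (y * defect y + y * defect y)) ≤ _
  have h1 := d.n_sub (y + defect y) (y * defect y + y * defect y)
  have h2 := d.n_add y (defect y)
  have h3 := d.n_add (y * defect y) (y * defect y)
  have h4 := d.n_mul y (defect y)
  nlinarith

lemma N_step (y : R) :
    d.N (stepR y) ≤ d.N y * (1 + 2 * d.n (defect y)) + d.N (defect y) * (1 + 2 * d.n y) := by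
  show d.N (y + defect y - (y * defect y + y * defect y)) ≤ _
  have h1 := d.N_sub (y + defect y) (y * defect y + y * defect y)
  have h2 := d.N_add y (defect y)
  have h3 := d.N_add (y * defect y) (y * defect y)
  have h4 := d.N_mul y (defect y)
  nlinarith

lemma T_step (y : R) :
    ‖d.T (stepR y) - d.T y‖ ≤ d.K * (d.n (defect y) * (1 + 2 * d.n y)) := by
  have : d.T (stepR y) - d.T y = d.T (defect y) - (d.T (y * defect y) + d.T (y * defect y)) := by
    show d.T (y + defect y - (y * defect y + y * defect y)) - d.T y = _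
    simp only [map_sub, map_add]
    ring
  rw [this]
  have h1 := d.T_le (defect y)
  have h2 := d.T_le (y * defect y)
  have h3 := d.n_mul y (defect y)
  have hK := d.K_nonneg
  have h4 : d.K * d.n (y * defect y) ≤ d.K * (d.n y * d.n (defect y)) :=
    mul_le_mul_of_nonneg_left h3 hK
  calc ‖d.T (defect y) - (d.T (y * defect y) + d.T (y * defect y))‖
      ≤ ‖d.T (defect y)‖ + ‖d.T (y * defect y) + d.T (y * defect y)‖ := norm_sub_le _ _
    _ ≤ ‖d.T (defect y)‖ + (‖d.T (y * defect y)‖ + ‖d.T (y * defect y)‖) := by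
        gcongr; exact norm_add_le _ _
    _ ≤ d.K * (d.n (defect y) * (1 + 2 * d.n y)) := by nlinarith

/-- The basic cochain identity: the functional on an almost idempotent element. -/
lemma theta_T_eq (y : R) :
    d.θ * d.T y = - (d.θ * d.T (defect y)) + 2 * d.Ψ (defect y) y - 4 * d.Ψ y (defect y) := by
  have e : y * y = y + defect y := by unfold defect; abel
  have h1 := d.I1 y y
  have h2 := d.I2 y y y
  rw [e] at h1 h2
  simp only [map_add, AddMonoidHom.add_apply] at h1 h2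
  linear_combination h1 - 2 * h2

lemma theta_T_le (y : R) :
    ‖d.θ‖ * ‖d.T y‖ ≤
      ‖d.θ‖ * (d.K * d.n (defect y)) + 2 * (d.K * (d.N (defect y) * d.n y)) +
        4 * (d.K * (d.N y * d.n (defect y))) := by
  have h := d.theta_T_eq y
  have h1 := d.T_le (defect y)
  have h2 := d.Ψ_le (defect y) y
  have h3 := d.Ψ_le y (defect y)
  rw [← norm_mul, h]
  calc ‖-(d.θ * d.T (defect y)) + 2 * d.Ψ (defect y) y - 4 * d.Ψ y (defect y)‖
      ≤ ‖-(d.θ * d.T (defect y)) + 2 * d.Ψ (defect y) y‖ + ‖4 * d.Ψ y (defect y)‖ :=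
        norm_sub_le _ _
    _ ≤ ‖-(d.θ * d.T (defect y))‖ + ‖2 * d.Ψ (defect y) y‖ + ‖4 * d.Ψ y (defect y)‖ := by
        gcongr; exact norm_add_le _ _
    _ = ‖d.θ‖ * ‖d.T (defect y)‖ + 2 * ‖d.Ψ (defect y) y‖ + 4 * ‖d.Ψ y (defect y)‖ := by
        simp [norm_neg, norm_mul]
    _ ≤ _ := by
        have hθ := norm_nonneg d.θ
        have := mul_le_mul_of_nonneg_left h1 hθ
        linarith

/-- The first two geometric decay estimates for the iteration. -/
lemma decay_n (y : R) {c : ℝ} (h1 : d.n (defect y) ≤ c) (hρ : d.n (defect y) ≤ 1 / 20) :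
    d.n (defect (stepR y)) ≤ c * (1 / 4) := by
  have h := d.n_defect_step y
  have h0 := d.n_nonneg (defect y)
  generalize d.n (defect y) = ρ at *
  have h2 : ρ ^ 2 ≤ ρ * (1 / 20) := by nlinarith
  have h3 : ρ ^ 3 ≤ ρ * (1 / 400) := by nlinarith
  linarith

lemma decay_N (y : R) {c : ℝ} (h1 : d.N (defect y) ≤ c) (hρ : d.n (defect y) ≤ 1 / 20) :
    d.N (defect (stepR y)) ≤ c * (1 / 2) := by
  have h := d.N_defect_step y
  have h0 := d.n_nonneg (defect y)
  have h0' := d.N_nonneg (defect y)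
  generalize d.n (defect y) = ρ at *
  generalize d.N (defect y) = ν at *
  have h4 : 12 * ρ ^ 2 + 6 * ρ ≤ 1 / 2 := by nlinarith
  calc _ ≤ (12 * ρ ^ 2 + 6 * ρ) * ν := h
    _ ≤ (1 / 2) * ν := mul_le_mul_of_nonneg_right h4 h0'
    _ ≤ c * (1 / 2) := by linarith

/-- All the estimates of the iteration, by induction. -/
lemma iter_bounds (x₀ : R) (hρ : d.n (defect x₀) ≤ 1 / 20)
    (hB : d.n (defect x₀) * (3 + 2 * d.n x₀) ≤ 1 / 2) (k : ℕ) :
    d.n (defect (iterR x₀ k)) ≤ d.n (defect x₀) * (1 / 4) ^ k ∧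
    d.N (defect (iterR x₀ k)) ≤ d.N (defect x₀) * (1 / 2) ^ k ∧
    d.n (iterR x₀ k) ≤ d.n x₀ + 1 - (1 / 2) ^ k := by
  have hρ0 : 0 ≤ d.n (defect x₀) := d.n_nonneg _
  have hν0 : 0 ≤ d.N (defect x₀) := d.N_nonneg _
  have ha0 : 0 ≤ d.n x₀ := d.n_nonneg _
  induction k with
  | zero => simp [iterR]
  | succ k ih =>
    obtain ⟨h1, h2, h3⟩ := ih
    have hpow4le : ((1 : ℝ) / 4) ^ k ≤ 1 := pow_le_one₀ (by norm_num) (by norm_num)
    have h42 : ((1 : ℝ) / 4) ^ k ≤ (1 / 2) ^ k :=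
      pow_le_pow_left₀ (by norm_num) (by norm_num) k
    have hρsmall : d.n (defect (iterR x₀ k)) ≤ 1 / 20 :=
      calc _ ≤ d.n (defect x₀) * (1 / 4) ^ k := h1
        _ ≤ d.n (defect x₀) * 1 := mul_le_mul_of_nonneg_left hpow4le hρ0
        _ ≤ 1 / 20 := by linarith
    refine ⟨?_, ?_, ?_⟩
    · rw [pow_succ, ← mul_assoc]
      exact d.decay_n (iterR x₀ k) h1 hρsmall
    · rw [pow_succ, ← mul_assoc]
      exact d.decay_N (iterR x₀ k) h2 hρsmall
    · have hstep := d.n_step (iterR x₀ k)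
      have hnn := d.n_nonneg (iterR x₀ k)
      have hnn' := d.n_nonneg (defect (iterR x₀ k))
      have haA : 1 + 2 * d.n (iterR x₀ k) ≤ 3 + 2 * d.n x₀ := by
        have : ((1 : ℝ) / 2) ^ k > 0 := by positivity
        linarith
      have hB0 : 0 ≤ 3 + 2 * d.n x₀ := by linarith
      have hprod : d.n (defect (iterR x₀ k)) * (1 + 2 * d.n (iterR x₀ k)) ≤
          d.n (defect x₀) * (1 / 4) ^ k * (3 + 2 * d.n x₀) :=
        mul_le_mul h1 haA (by linarith) (by positivity)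
      have h' : d.n (defect x₀) * (1 / 4) ^ k * (3 + 2 * d.n x₀) ≤ (1 / 2) * (1 / 2) ^ k :=
        calc d.n (defect x₀) * (1 / 4) ^ k * (3 + 2 * d.n x₀)
            = (d.n (defect x₀) * (3 + 2 * d.n x₀)) * (1 / 4) ^ k := by ring
          _ ≤ (1 / 2) * (1 / 4) ^ k := mul_le_mul_of_nonneg_right hB (by positivity)
          _ ≤ (1 / 2) * (1 / 2) ^ k := mul_le_mul_of_nonneg_left h42 (by norm_num)
      show d.n (stepR (iterR x₀ k)) ≤ _
      rw [pow_succ]
      linarith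

lemma iter_N_bound (x₀ : R) (hρ : d.n (defect x₀) ≤ 1 / 20)
    (hB : d.n (defect x₀) * (3 + 2 * d.n x₀) ≤ 1 / 2) (k : ℕ) :
    d.N (iterR x₀ k) + d.N (defect x₀) * (3 + 2 * d.n x₀) ≤
      2 ^ k * (d.N x₀ + d.N (defect x₀) * (3 + 2 * d.n x₀)) := by
  have hρ0 : 0 ≤ d.n (defect x₀) := d.n_nonneg _
  have hν0 : 0 ≤ d.N (defect x₀) := d.N_nonneg _
  have ha0 : 0 ≤ d.n x₀ := d.n_nonneg _
  induction k with
  | zero => simp [iterR]
  | succ k ih =>
    obtain ⟨h1, h2, h3⟩ := d.iter_bounds x₀ hρ hB k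
    have hpow4le : ((1 : ℝ) / 4) ^ k ≤ 1 := pow_le_one₀ (by norm_num) (by norm_num)
    have hpow2le : ((1 : ℝ) / 2) ^ k ≤ 1 := pow_le_one₀ (by norm_num) (by norm_num)
    have hρsmall : d.n (defect (iterR x₀ k)) ≤ 1 / 20 :=
      calc _ ≤ d.n (defect x₀) * (1 / 4) ^ k := h1
        _ ≤ d.n (defect x₀) * 1 := mul_le_mul_of_nonneg_left hpow4le hρ0
        _ ≤ 1 / 20 := by linarith
    have hstep := d.N_step (iterR x₀ k)
    have hLnn := d.N_nonneg (iterR x₀ k)
    have hνnn := d.N_nonneg (defect (iterR x₀ k))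
    have hann := d.n_nonneg (iterR x₀ k)
    have h6 : d.N (iterR x₀ k) * (1 + 2 * d.n (defect (iterR x₀ k))) ≤ d.N (iterR x₀ k) * 2 :=
      mul_le_mul_of_nonneg_left (by linarith) hLnn
    have haA : 1 + 2 * d.n (iterR x₀ k) ≤ 3 + 2 * d.n x₀ := by
      have : ((1 : ℝ) / 2) ^ k > 0 := by positivity
      linarith
    have hν : d.N (defect (iterR x₀ k)) ≤ d.N (defect x₀) :=
      calc _ ≤ d.N (defect x₀) * (1 / 2) ^ k := h2
        _ ≤ d.N (defect x₀) * 1 := mul_le_mul_of_nonneg_left hpow2le hν0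
        _ = d.N (defect x₀) := mul_one _
    have h7 : d.N (defect (iterR x₀ k)) * (1 + 2 * d.n (iterR x₀ k)) ≤
        d.N (defect x₀) * (3 + 2 * d.n x₀) :=
      mul_le_mul hν haA (by linarith) hν0
    show d.N (stepR (iterR x₀ k)) + _ ≤ _
    rw [pow_succ]
    have h8 : 2 * (d.N (iterR x₀ k) + d.N (defect x₀) * (3 + 2 * d.n x₀)) ≤
        2 * (2 ^ k * (d.N x₀ + d.N (defect x₀) * (3 + 2 * d.n x₀))) :=
      mul_le_mul_of_nonneg_left ih (by norm_num)
    linarith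

lemma iter_T_bound (x₀ : R) (hρ : d.n (defect x₀) ≤ 1 / 20)
    (hB : d.n (defect x₀) * (3 + 2 * d.n x₀) ≤ 1 / 2) (k : ℕ) :
    ‖d.T (iterR x₀ k) - d.T x₀‖ ≤
      d.K * (d.n (defect x₀) * (3 + 2 * d.n x₀)) * (2 * (1 - (1 / 2) ^ k)) := by
  have hρ0 : 0 ≤ d.n (defect x₀) := d.n_nonneg _
  have ha0 : 0 ≤ d.n x₀ := d.n_nonneg _
  have hK := d.K_nonneg
  induction k with
  | zero => simp [iterR]
  | succ k ih =>
    obtain ⟨h1, h2, h3⟩ := d.iter_bounds x₀ hρ hB k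
    have h42 : ((1 : ℝ) / 4) ^ k ≤ (1 / 2) ^ k :=
      pow_le_pow_left₀ (by norm_num) (by norm_num) k
    have hstep := d.T_step (iterR x₀ k)
    have hnn := d.n_nonneg (iterR x₀ k)
    have haA : 1 + 2 * d.n (iterR x₀ k) ≤ 3 + 2 * d.n x₀ := by
      have : ((1 : ℝ) / 2) ^ k > 0 := by positivity
      linarith
    have hprod : d.n (defect (iterR x₀ k)) * (1 + 2 * d.n (iterR x₀ k)) ≤
        (d.n (defect x₀) * (3 + 2 * d.n x₀)) * (1 / 2) ^ k :=
      calc _ ≤ d.n (defect x₀) * (1 / 4) ^ k * (3 + 2 * d.n x₀) :=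
            mul_le_mul h1 haA (by linarith) (by positivity)
        _ = (d.n (defect x₀) * (3 + 2 * d.n x₀)) * (1 / 4) ^ k := by ring
        _ ≤ _ := mul_le_mul_of_nonneg_left h42 (by positivity)
    have h8 := mul_le_mul_of_nonneg_left hprod hK
    have htri : ‖d.T (iterR x₀ (k + 1)) - d.T x₀‖ ≤
        ‖d.T (stepR (iterR x₀ k)) - d.T (iterR x₀ k)‖ + ‖d.T (iterR x₀ k) - d.T x₀‖ :=
      calc _ = ‖(d.T (stepR (iterR x₀ k)) - d.T (iterR x₀ k)) + (d.T (iterR x₀ k) - d.T x₀)‖ := by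
            congr 1
            show d.T (stepR (iterR x₀ k)) - d.T x₀ = _
            ring
        _ ≤ _ := norm_add_le _ _
    have e : d.K * (d.n (defect x₀) * (3 + 2 * d.n x₀)) * (2 * (1 - (1 / 2) ^ (k + 1))) =
        d.K * (d.n (defect x₀) * (3 + 2 * d.n x₀)) * (2 * (1 - (1 / 2) ^ k)) +
        d.K * (d.n (defect x₀) * (3 + 2 * d.n x₀)) * (1 / 2) ^ k := by
      rw [pow_succ]; ring
    rw [e]
    have e2 : d.K * (d.n (defect x₀) * (3 + 2 * d.n x₀) * (1 / 2) ^ k) =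
        d.K * (d.n (defect x₀) * (3 + 2 * d.n x₀)) * (1 / 2) ^ k := by ring
    linarith

/-- Main conclusion of the iteration. -/
theorem T_le_of_almost_idempotent (hθ : d.θ ≠ 0) (x₀ : R) (hρ : d.n (defect x₀) ≤ 1 / 20)
    (hB : d.n (defect x₀) * (3 + 2 * d.n x₀) ≤ 1 / 2) :
    ‖d.T x₀‖ ≤ 2 * d.K * (d.n (defect x₀) * (3 + 2 * d.n x₀)) := by
  set ρ₀ := d.n (defect x₀) with hρ₀
  set ν₀ := d.N (defect x₀) with hν₀
  set a₀ := d.n x₀ with ha₀
  set L₀ := d.N x₀ with hL₀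
  have hρ0 : 0 ≤ ρ₀ := d.n_nonneg _
  have hν0 : 0 ≤ ν₀ := d.N_nonneg _
  have ha0 : 0 ≤ a₀ := d.n_nonneg _
  have hL0 : 0 ≤ L₀ := d.N_nonneg _
  have hK := d.K_nonneg
  have hθpos : 0 < ‖d.θ‖ := norm_pos_iff.mpr hθ
  set V := ν₀ * (3 + 2 * a₀) with hV
  have hV0 : 0 ≤ V := by positivity
  set C : ℝ := ‖d.θ‖ * (d.K * ρ₀) + 2 * (d.K * (ν₀ * (a₀ + 1))) + 4 * (d.K * ((L₀ + V) * ρ₀))
    with hC
  have hC0 : 0 ≤ C := by positivity
  -- for every k
  have key : ∀ k : ℕ, ‖d.T x₀‖ ≤ C / ‖d.θ‖ * (1 / 2) ^ k + 2 * d.K * (ρ₀ * (3 + 2 * a₀)) := by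
    intro k
    obtain ⟨h1, h2, h3⟩ := d.iter_bounds x₀ hρ hB k
    have h4 := d.iter_N_bound x₀ hρ hB k
    have h5 := d.iter_T_bound x₀ hρ hB k
    have hpow4 : (0 : ℝ) < (1 / 4) ^ k := by positivity
    have hpow2 : (0 : ℝ) < (1 / 2) ^ k := by positivity
    have hpow2le : ((1 : ℝ) / 2) ^ k ≤ 1 := pow_le_one₀ (by norm_num) (by norm_num)
    have h42 : ((1 : ℝ) / 4) ^ k ≤ (1 / 2) ^ k :=
      pow_le_pow_left₀ (by norm_num) (by norm_num) k
    have hsplit : ((1 : ℝ) / 4) ^ k * 2 ^ k = (1 / 2) ^ k := by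
      rw [← mul_pow]; norm_num
    set y := iterR x₀ k with hy
    set ρ := d.n (defect y) with hρdef
    set ν := d.N (defect y) with hνdef
    set a := d.n y with hadef
    set L := d.N y with hLdef
    have hρnn : 0 ≤ ρ := d.n_nonneg _
    have hνnn : 0 ≤ ν := d.N_nonneg _
    have hann : 0 ≤ a := d.n_nonneg _
    have hLnn : 0 ≤ L := d.N_nonneg _
    have hmain := d.theta_T_le y
    have haa : a ≤ a₀ + 1 := by linarith
    have hLL : L ≤ 2 ^ k * (L₀ + V) := by linarith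
    have e1 : ‖d.θ‖ * (d.K * ρ) ≤ ‖d.θ‖ * (d.K * ρ₀) * (1 / 2) ^ k := by
      have : ρ ≤ ρ₀ * (1 / 2) ^ k := by
        calc ρ ≤ ρ₀ * (1 / 4) ^ k := h1
          _ ≤ ρ₀ * (1 / 2) ^ k := by gcongr
      calc ‖d.θ‖ * (d.K * ρ) ≤ ‖d.θ‖ * (d.K * (ρ₀ * (1 / 2) ^ k)) := by gcongr
        _ = _ := by ring
    have e2 : 2 * (d.K * (ν * a)) ≤ 2 * (d.K * (ν₀ * (a₀ + 1))) * (1 / 2) ^ k := by
      have : ν * a ≤ (ν₀ * (1 / 2) ^ k) * (a₀ + 1) :=
        mul_le_mul h2 haa hann (by positivity)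
      calc 2 * (d.K * (ν * a)) ≤ 2 * (d.K * ((ν₀ * (1 / 2) ^ k) * (a₀ + 1))) := by gcongr
        _ = _ := by ring
    have e3 : 4 * (d.K * (L * ρ)) ≤ 4 * (d.K * ((L₀ + V) * ρ₀)) * (1 / 2) ^ k := by
      have : L * ρ ≤ (2 ^ k * (L₀ + V)) * (ρ₀ * (1 / 4) ^ k) :=
        mul_le_mul hLL h1 hρnn (by positivity)
      have e : (2 ^ k * (L₀ + V)) * (ρ₀ * (1 / 4) ^ k) = (L₀ + V) * ρ₀ * (1 / 2) ^ k := by
        rw [← hsplit]; ring
      rw [e] at this
      calc 4 * (d.K * (L * ρ)) ≤ 4 * (d.K * ((L₀ + V) * ρ₀ * (1 / 2) ^ k)) := by gcongr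
        _ = _ := by ring
    have hfin : ‖d.θ‖ * ‖d.T y‖ ≤ C * (1 / 2) ^ k := by
      rw [hC]
      nlinarith
    have hTy : ‖d.T y‖ ≤ C / ‖d.θ‖ * (1 / 2) ^ k := by
      rw [div_mul_eq_mul_div, le_div_iff₀ hθpos]
      linarith
    have htri : ‖d.T x₀‖ ≤ ‖d.T y‖ + ‖d.T y - d.T x₀‖ := by
      calc ‖d.T x₀‖ = ‖d.T y - (d.T y - d.T x₀)‖ := by congr 1; ring
        _ ≤ _ := norm_sub_le _ _
    have h5' : ‖d.T y - d.T x₀‖ ≤ 2 * d.K * (ρ₀ * (3 + 2 * a₀)) := by
      have hnn : 0 ≤ d.K * (ρ₀ * (3 + 2 * a₀)) := by positivity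
      nlinarith
    linarith
  -- pass to the limit
  have hlim : Filter.Tendsto (fun k : ℕ => C / ‖d.θ‖ * (1 / 2 : ℝ) ^ k + 2 * d.K * (ρ₀ * (3 + 2 * a₀)))
      Filter.atTop (nhds (C / ‖d.θ‖ * 0 + 2 * d.K * (ρ₀ * (3 + 2 * a₀)))) := by
    apply Filter.Tendsto.add_const
    apply Filter.Tendsto.const_mul
    exact tendsto_pow_atTop_nhds_zero_of_lt_one (by norm_num) (by norm_num)
  have := ge_of_tendsto' hlim key
  simpa using this

end IterData

end Iter

end Vale.Agent.Lib.P184
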