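import Vale.Agent.Lib.P184.Main

/-!
Linear groups: elements with an eigenvalue of absolute value different from one.
-/

namespace Vale.Agent.Lib.P184

open Matrix

set_option linter.unusedSectionVars false

section Size

variable {K : Type*} [Field K] (v : AbsoluteValue K ℝ)

/-- The sum of the absolute values of the entries of a matrix. -/
noncomputable def msize {n : ℕ} (A : Matrix (Fin n) (Fin n) K) : ℝ := ∑ i, ∑ j, v (A i j)

lemma msize_nonneg {n : ℕ} (A : Matrix (Fin n) (Fin n) K) : 0 ≤ msize v A :=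
  Finset.sum_nonneg fun _ _ => Finset.sum_nonneg fun _ _ => v.nonneg _

lemma msize_mul {n : ℕ} (A B : Matrix (Fin n) (Fin n) K) :
    msize v (A * B) ≤ msize v A * msize v B := by
  unfold msize
  calc ∑ i, ∑ j, v ((A * B) i j)
      ≤ ∑ i, ∑ j, ∑ k, v (A i k) * v (B k j) := by
        refine Finset.sum_le_sum fun i _ => Finset.sum_le_sum fun j _ => ?_
        rw [Matrix.mul_apply]
        refine (v.sum_le _ _).trans (Finset.sum_le_sum fun k _ => ?_)
        rw [map_mul]
    _ ≤ ∑ i, ∑ k, v (A i k) * ∑ k', ∑ j, v (B k' j) := by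
        refine Finset.sum_le_sum fun i _ => ?_
        rw [Finset.sum_comm]
        refine Finset.sum_le_sum fun k _ => ?_
        rw [← Finset.mul_sum]
        refine mul_le_mul_of_nonneg_left ?_ (v.nonneg _)
        exact Finset.single_le_sum (f := fun k' => ∑ j, v (B k' j))
          (fun _ _ => Finset.sum_nonneg fun _ _ => v.nonneg _) (Finset.mem_univ k)
    _ = (∑ i, ∑ j, v (A i j)) * ∑ i, ∑ j, v (B i j) := by
        simp only [Finset.sum_mul]

/-- A bound for the determinant of a linear image of a matrix. -/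
lemma det_linear_le {n d : ℕ}
    (Ξ : Matrix (Fin n) (Fin n) K →ₗ[K] Matrix (Fin d) (Fin d) K) :
    ∃ C : ℝ, 1 ≤ C ∧ ∀ A : Matrix (Fin n) (Fin n) K,
      v (Matrix.det (Ξ A)) ≤ C * (max 1 (msize v A)) ^ d := by
  classical
  -- bound for the images of the basis matrices
  let c : ℝ := ∑ i, ∑ j, ∑ k, ∑ l, v (Ξ (Matrix.single k l 1) i j)
  have hc0 : 0 ≤ c := Finset.sum_nonneg fun _ _ => Finset.sum_nonneg fun _ _ =>
    Finset.sum_nonneg fun _ _ => Finset.sum_nonneg fun _ _ => v.nonneg _
  have hcb : ∀ i j k l, v (Ξ (Matrix.single k l 1) i j) ≤ c := by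
    intro i j k l
    have h1 : v (Ξ (Matrix.single k l 1) i j) ≤ ∑ l, v (Ξ (Matrix.single k l 1) i j) :=
      Finset.single_le_sum (f := fun l => v (Ξ (Matrix.single k l 1) i j))
        (fun _ _ => v.nonneg _) (Finset.mem_univ l)
    have h2 : ∑ l, v (Ξ (Matrix.single k l 1) i j) ≤ ∑ k, ∑ l, v (Ξ (Matrix.single k l 1) i j) :=
      Finset.single_le_sum (f := fun k => ∑ l, v (Ξ (Matrix.single k l 1) i j))
        (fun _ _ => Finset.sum_nonneg fun _ _ => v.nonneg _) (Finset.mem_univ k)
    have h3 : ∑ k, ∑ l, v (Ξ (Matrix.single k l 1) i j) ≤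
        ∑ j, ∑ k, ∑ l, v (Ξ (Matrix.single k l 1) i j) :=
      Finset.single_le_sum (f := fun j => ∑ k, ∑ l, v (Ξ (Matrix.single k l 1) i j))
        (fun _ _ => Finset.sum_nonneg fun _ _ => Finset.sum_nonneg fun _ _ => v.nonneg _)
        (Finset.mem_univ j)
    have h4 : ∑ j, ∑ k, ∑ l, v (Ξ (Matrix.single k l 1) i j) ≤ c :=
      Finset.single_le_sum (f := fun i => ∑ j, ∑ k, ∑ l, v (Ξ (Matrix.single k l 1) i j))
        (fun _ _ => Finset.sum_nonneg fun _ _ => Finset.sum_nonneg fun _ _ =>
          Finset.sum_nonneg fun _ _ => v.nonneg _) (Finset.mem_univ i)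
    linarith
  have hentry : ∀ (A : Matrix (Fin n) (Fin n) K) i j, v (Ξ A i j) ≤ c * msize v A := by
    intro A i j
    have hA : A = ∑ k, ∑ l, A k l • Matrix.single k l (1 : K) := by
      conv_lhs => rw [Matrix.matrix_eq_sum_single A]
      simp only [Matrix.smul_single, smul_eq_mul, mul_one]
    have e : Ξ A i j = ∑ k, ∑ l, A k l * Ξ (Matrix.single k l 1) i j := by
      conv_lhs => rw [hA]
      simp only [map_sum, map_smul, Matrix.sum_apply, Matrix.smul_apply, smul_eq_mul]
    rw [e]
    refine (v.sum_le _ _).trans ?_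
    unfold msize
    rw [Finset.mul_sum]
    refine Finset.sum_le_sum fun k _ => ?_
    refine (v.sum_le _ _).trans ?_
    rw [Finset.mul_sum]
    refine Finset.sum_le_sum fun l _ => ?_
    rw [map_mul, mul_comm]
    exact mul_le_mul_of_nonneg_right (hcb i j k l) (v.nonneg _)
  refine ⟨(Nat.factorial d : ℝ) * (c + 1) ^ d, ?_, ?_⟩
  · have h1 : (1 : ℝ) ≤ Nat.factorial d := by exact_mod_cast Nat.factorial_pos d
    have h2 : (1 : ℝ) ≤ (c + 1) ^ d := one_le_pow₀ (by linarith)
    nlinarith
  · intro A
    set M := max 1 (msize v A) with hM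
    have hM1 : 1 ≤ M := le_max_left _ _
    have hMs : msize v A ≤ M := le_max_right _ _
    have hentry' : ∀ i j, v (Ξ A i j) ≤ (c + 1) * M := by
      intro i j
      refine (hentry A i j).trans ?_
      have h0 := msize_nonneg v A
      nlinarith
    rw [Matrix.det_apply]
    refine (v.sum_le _ _).trans ?_
    have hterm : ∀ σ : Equiv.Perm (Fin d),
        v (Equiv.Perm.sign σ • ∏ i, (Ξ A) (σ i) i) ≤ ((c + 1) * M) ^ d := by
      intro σ
      have hs : v (Equiv.Perm.sign σ • ∏ i, (Ξ A) (σ i) i) = v (∏ i, (Ξ A) (σ i) i) := by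
        rcases Int.units_eq_one_or (Equiv.Perm.sign σ) with h | h <;> simp [h, Units.smul_def]
      rw [hs, map_prod]
      calc ∏ i, v ((Ξ A) (σ i) i) ≤ ∏ _i : Fin d, ((c + 1) * M) :=
            Finset.prod_le_prod (fun _ _ => v.nonneg _) (fun i _ => hentry' _ _)
        _ = ((c + 1) * M) ^ d := by simp
    calc ∑ σ : Equiv.Perm (Fin d), v (Equiv.Perm.sign σ • ∏ i, (Ξ A) (σ i) i)
        ≤ ∑ _σ : Equiv.Perm (Fin d), ((c + 1) * M) ^ d := Finset.sum_le_sum fun σ _ => hterm σ
      _ = (Nat.factorial d : ℝ) * (c + 1) ^ d * M ^ d := by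
        simp only [Finset.sum_const, Finset.card_univ, Fintype.card_perm, Fintype.card_fin,
          nsmul_eq_mul]
        rw [mul_pow]
        ring

end Size

section Group

variable {G : Type*} [Group G] {K : Type*} [Field K] (v : AbsoluteValue K ℝ) {n : ℕ}
  (ρ : G →* GL (Fin n) K)

/-- The linear map of a group element. -/
noncomputable def linOf (g : G) : (Fin n → K) →ₗ[K] (Fin n → K) :=
  Matrix.toLin' ((ρ g : GL (Fin n) K) : Matrix (Fin n) (Fin n) K)

lemma linOf_mul (g h : G) : linOf ρ (g * h) = linOf ρ g ∘ₗ linOf ρ h := by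
  simp [linOf, Matrix.toLin'_mul]

lemma linOf_one : linOf ρ 1 = LinearMap.id := by
  simp [linOf]

/-- The size of a group element: the larger entry sum of it and its inverse, at least one. -/
noncomputable def gsize (g : G) : ℝ :=
  max 1 (max (msize v ((ρ g : GL (Fin n) K) : Matrix (Fin n) (Fin n) K))
    (msize v ((ρ g⁻¹ : GL (Fin n) K) : Matrix (Fin n) (Fin n) K)))

lemma one_le_gsize (g : G) : 1 ≤ gsize v ρ g := le_max_left _ _

lemma gsize_mul (g h : G) : gsize v ρ (g * h) ≤ gsize v ρ g * gsize v ρ h := by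
  have hg := one_le_gsize v ρ g
  have hh := one_le_gsize v ρ h
  have hgpos : 0 ≤ gsize v ρ g := by linarith
  have hhpos : 0 ≤ gsize v ρ h := by linarith
  have h1 : msize v ((ρ g : GL (Fin n) K) : Matrix (Fin n) (Fin n) K) ≤ gsize v ρ g :=
    (le_max_left _ _).trans (le_max_right _ _)
  have h2 : msize v ((ρ g⁻¹ : GL (Fin n) K) : Matrix (Fin n) (Fin n) K) ≤ gsize v ρ g :=
    (le_max_right _ _).trans (le_max_right _ _)
  have h3 : msize v ((ρ h : GL (Fin n) K) : Matrix (Fin n) (Fin n) K) ≤ gsize v ρ h :=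
    (le_max_left _ _).trans (le_max_right _ _)
  have h4 : msize v ((ρ h⁻¹ : GL (Fin n) K) : Matrix (Fin n) (Fin n) K) ≤ gsize v ρ h :=
    (le_max_right _ _).trans (le_max_right _ _)
  have e1 : msize v ((ρ (g * h) : GL (Fin n) K) : Matrix (Fin n) (Fin n) K) ≤
      gsize v ρ g * gsize v ρ h := by
    rw [map_mul, Units.val_mul]
    exact (msize_mul v _ _).trans
      (mul_le_mul h1 h3 (msize_nonneg v _) hgpos)
  have e2 : msize v ((ρ (g * h)⁻¹ : GL (Fin n) K) : Matrix (Fin n) (Fin n) K) ≤
      gsize v ρ g * gsize v ρ h := by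
    rw [_root_.mul_inv_rev, map_mul, Units.val_mul]
    refine (msize_mul v _ _).trans ?_
    rw [mul_comm]
    exact mul_le_mul h2 h4 (msize_nonneg v _) hgpos
  refine max_le ?_ (max_le e1 e2)
  nlinarith

lemma gsize_inv (g : G) : gsize v ρ g⁻¹ = gsize v ρ g := by
  unfold gsize
  rw [inv_inv, max_comm (msize v _) (msize v _)]

/-- The vanishing theorem at an eigenvalue off the unit circle. -/
theorem hsCoeff_eq_zero_of_eigenvalue {q : ℕ} {e : Fin q → Fin q → G → ℂ}
    (he : IsL1Idempotent e) {g₀ : G} {μ : K} {x : Fin n → K} (hx : x ≠ 0)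
    (hxμ : ((ρ g₀ : GL (Fin n) K) : Matrix (Fin n) (Fin n) K).mulVec x = μ • x) (hμ : v μ ≠ 1) :
    hsCoeff e g₀ = 0 := by
  classical
  -- the generalized eigenspace
  let T := linOf ρ g₀
  let f : Module.End K (Fin n → K) := T - μ • 1
  let W : Submodule K (Fin n → K) := LinearMap.ker (f ^ n)
  have hnpos : 0 < n := by
    by_contra hn
    have h0 : n = 0 := by omega
    subst h0
    exact hx (Subsingleton.elim _ _)
  have hxW : x ∈ W := by
    have hfx : f x = 0 := by
      show T x - (μ • (1 : Module.End K (Fin n → K))) x = 0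
      have : T x = μ • x := by
        show Matrix.toLin' _ x = _
        rw [Matrix.toLin'_apply]
        exact hxμ
      rw [this]
      simp
    show (f ^ n) x = 0
    obtain ⟨m, rfl⟩ : ∃ m, n = m + 1 := ⟨n - 1, by omega⟩
    rw [pow_succ, Module.End.mul_apply, hfx, map_zero]
  -- commuting maps preserve `W`
  have hcomm : ∀ z : Subgroup.centralizer ({g₀} : Set G),
      Commute (linOf ρ (z : G) : Module.End K (Fin n → K)) f := by
    intro z
    have hz : (z : G) * g₀ = g₀ * (z : G) := (Subgroup.mem_centralizer_singleton_iff).mp z.2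
    have h1 : Commute (linOf ρ (z : G) : Module.End K (Fin n → K)) T := by
      show linOf ρ (z : G) * linOf ρ g₀ = linOf ρ g₀ * linOf ρ (z : G)
      have h2 := linOf_mul ρ (z : G) g₀
      have h3 := linOf_mul ρ g₀ (z : G)
      exact h2.symm.trans ((congrArg (linOf ρ) hz).trans h3)
    exact h1.sub_right (Commute.smul_right (Commute.one_right _) μ)
  have hpres : ∀ z : Subgroup.centralizer ({g₀} : Set G), ∀ w ∈ W, linOf ρ (z : G) w ∈ W := by
    intro z w hw
    have h1 : (f ^ n) w = 0 := hw
    show (f ^ n) (linOf ρ (z : G) w) = 0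
    have h2 : ((f ^ n) * (linOf ρ (z : G) : Module.End K (Fin n → K))) w =
        ((linOf ρ (z : G) : Module.End K (Fin n → K)) * (f ^ n)) w := by
      rw [((hcomm z).pow_right n).eq]
    rw [Module.End.mul_apply, Module.End.mul_apply, h1, map_zero] at h2
    exact h2
  -- restrictions
  let R : Subgroup.centralizer ({g₀} : Set G) → Module.End K W := fun z =>
    (linOf ρ (z : G)).restrict (hpres z)
  have hRmul : ∀ z z', R (z * z') = R z * R z' := by
    intro z z'
    refine LinearMap.ext fun w => Subtype.ext ?_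
    show linOf ρ ((z * z' : Subgroup.centralizer ({g₀} : Set G)) : G) (w : Fin n → K) = _
    rw [Subgroup.coe_mul, linOf_mul]
    rfl
  have hRone : R 1 = 1 := by
    refine LinearMap.ext fun w => Subtype.ext ?_
    show linOf ρ ((1 : Subgroup.centralizer ({g₀} : Set G)) : G) (w : Fin n → K) = _
    rw [Subgroup.coe_one, linOf_one]
    rfl
  have hdetmul : ∀ z z', LinearMap.det (R (z * z')) = LinearMap.det (R z) * LinearMap.det (R z') := by
    intro z z'
    rw [hRmul, map_mul]
  have hdetne : ∀ z, LinearMap.det (R z) ≠ 0 := by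
    intro z h0
    have h1 := hdetmul z z⁻¹
    rw [mul_inv_cancel, hRone, map_one, h0, zero_mul] at h1
    exact one_ne_zero h1
  let φ : Subgroup.centralizer ({g₀} : Set G) → ℝ := fun z => Real.log (v (LinearMap.det (R z)))
  have hφmul : ∀ z z', φ (z * z') = φ z + φ z' := by
    intro z z'
    show Real.log (v (LinearMap.det (R (z * z')))) = _
    rw [hdetmul, map_mul, Real.log_mul]
    · exact (v.ne_zero_iff.mpr (hdetne z))
    · exact (v.ne_zero_iff.mpr (hdetne z'))
  have hφone : φ 1 = 0 := by
    have := hφmul 1 1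
    rw [one_mul] at this
    linarith
  have hφinv : ∀ z, φ z⁻¹ = - φ z := by
    intro z
    have := hφmul z⁻¹ z
    rw [inv_mul_cancel, hφone] at this
    linarith
  -- the bound
  let d := Module.finrank K W
  let b : Module.Basis (Fin d) K W := Module.finBasis K W
  obtain ⟨π, hπ⟩ := LinearMap.exists_leftInverse_of_injective W.subtype (Submodule.ker_subtype W)
  let Ξ : Matrix (Fin n) (Fin n) K →ₗ[K] Matrix (Fin d) (Fin d) K :=
    (LinearMap.toMatrix b b).toLinearMap ∘ₗ
      ((LinearMap.llcomp K _ _ _ π) ∘ₗ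
        ((LinearMap.lcomp K (Fin n → K) W.subtype) ∘ₗ (Matrix.toLin' : _ ≃ₗ[K] _).toLinearMap))
  obtain ⟨C, hC1, hC⟩ := det_linear_le v Ξ
  have hΞ : ∀ z : Subgroup.centralizer ({g₀} : Set G),
      Ξ (((ρ (z : G) : GL (Fin n) K)) : Matrix (Fin n) (Fin n) K) = LinearMap.toMatrix b b (R z) := by
    intro z
    show LinearMap.toMatrix b b (π ∘ₗ (linOf ρ (z : G)) ∘ₗ W.subtype) = _
    congr 1
    refine LinearMap.ext fun w => ?_
    have h1 : (linOf ρ (z : G)) (w : Fin n → K) = W.subtype (R z w) := rfl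
    simp only [LinearMap.comp_apply, Submodule.subtype_apply]
    rw [h1]
    have := LinearMap.congr_fun hπ (R z w)
    simpa using this
  have hdetC : ∀ z : Subgroup.centralizer ({g₀} : Set G),
      v (LinearMap.det (R z)) ≤ C * (gsize v ρ (z : G)) ^ d := by
    intro z
    have h1 := hC (((ρ (z : G) : GL (Fin n) K)) : Matrix (Fin n) (Fin n) K)
    rw [hΞ, LinearMap.det_toMatrix] at h1
    refine h1.trans ?_
    refine mul_le_mul_of_nonneg_left ?_ (by linarith)
    refine pow_le_pow_left₀ (by
      exact le_trans zero_le_one (le_max_left _ _)) ?_ d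
    refine max_le (le_max_left _ _) ?_
    exact (le_max_left _ _).trans (le_max_right _ _)
  -- the length function
  let ℓ : G → ℝ := fun g => Real.log C + (d : ℝ) * Real.log (gsize v ρ g)
  have hC0 : 0 ≤ Real.log C := Real.log_nonneg hC1
  have hℓ0 : ∀ g, 0 ≤ ℓ g := by
    intro g
    have := Real.log_nonneg (one_le_gsize v ρ g)
    positivity
  have hℓmul : ∀ g h, ℓ (g * h) ≤ ℓ g + ℓ h := by
    intro g h
    show Real.log C + (d : ℝ) * Real.log (gsize v ρ (g * h)) ≤
      (Real.log C + (d : ℝ) * Real.log (gsize v ρ g)) +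
        (Real.log C + (d : ℝ) * Real.log (gsize v ρ h))
    have hpos1 : 0 < gsize v ρ g := by linarith [one_le_gsize v ρ g]
    have hpos2 : 0 < gsize v ρ h := by linarith [one_le_gsize v ρ h]
    have hpos3 : 0 < gsize v ρ (g * h) := by linarith [one_le_gsize v ρ (g * h)]
    have h1 : Real.log (gsize v ρ (g * h)) ≤ Real.log (gsize v ρ g) + Real.log (gsize v ρ h) := by
      rw [← Real.log_mul hpos1.ne' hpos2.ne']
      exact Real.log_le_log hpos3 (gsize_mul v ρ g h)
    have hd : (0 : ℝ) ≤ d := Nat.cast_nonneg d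
    nlinarith
  have hℓinv : ∀ g, ℓ g⁻¹ = ℓ g := by
    intro g
    show Real.log C + (d : ℝ) * Real.log (gsize v ρ g⁻¹) = _
    rw [gsize_inv]
  have hφup : ∀ z, φ z ≤ ℓ (z : G) := by
    intro z
    show Real.log (v (LinearMap.det (R z))) ≤ Real.log C + (d : ℝ) * Real.log (gsize v ρ (z : G))
    have hpos : 0 < v (LinearMap.det (R z)) := v.pos (hdetne z)
    have hg : 0 < gsize v ρ (z : G) := by linarith [one_le_gsize v ρ (z : G)]
    have hCpos : 0 < C := by linarith
    have h1 := Real.log_le_log hpos (hdetC z)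
    rw [Real.log_mul hCpos.ne' (pow_pos hg d).ne', Real.log_pow] at h1
    exact h1
  have hφle : ∀ z, |φ z| ≤ ℓ (z : G) := by
    intro z
    rw [abs_le]
    constructor
    · have h1 := hφup z⁻¹
      rw [hφinv, Subgroup.coe_inv, hℓinv] at h1
      linarith
    · exact hφup z
  -- the value at `g₀`
  have hWne : 0 < d := by
    have : (⟨x, hxW⟩ : W) ≠ 0 := fun h => hx (congrArg Subtype.val h)
    have hnt : Nontrivial W := ⟨⟨_, 0, this⟩⟩
    exact Module.finrank_pos
  have hval : LinearMap.det (R ⟨g₀, by rw [Subgroup.mem_centralizer_singleton_iff]⟩) = μ ^ d := by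
    set S := R ⟨g₀, by rw [Subgroup.mem_centralizer_singleton_iff]⟩ with hS
    -- `μ - S` is nilpotent
    have hnil : IsNilpotent (algebraMap K (Module.End K W) μ - S) := by
      refine ⟨n, ?_⟩
      refine LinearMap.ext fun w => Subtype.ext ?_
      have hw : (f ^ n) (w : Fin n → K) = 0 := w.2
      have hsub : ∀ (m : ℕ) (u : W), (((algebraMap K (Module.End K W) μ - S) ^ m) u : Fin n → K) =
          (-1 : K) ^ m • (f ^ m) (u : Fin n → K) := by
        intro m
        induction m with
        | zero => intro u; simp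
        | succ m ih =>
          intro u
          rw [pow_succ, Module.End.mul_apply, ih, pow_succ (f), Module.End.mul_apply]
          have hstep : (((algebraMap K (Module.End K W) μ - S) u : W) : Fin n → K) =
              (-1 : K) • f (u : Fin n → K) := by
            show μ • (u : Fin n → K) - T (u : Fin n → K) = _
            show _ = (-1 : K) • (T (u : Fin n → K) - (μ • (1 : Module.End K (Fin n → K))) u)
            simp
          rw [hstep, map_smul, smul_smul, pow_succ]
      have := hsub n w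
      rw [hw, smul_zero] at this
      exact this
    have hch := hnil.charpoly_eq_X_pow_finrank
    have hev := LinearMap.eval_charpoly (algebraMap K (Module.End K W) μ - S) μ
    rw [hch] at hev
    simp only [Polynomial.eval_pow, Polynomial.eval_X] at hev
    have hcancel : (algebraMap K (W →ₗ[K] W)) μ - (algebraMap K (Module.End K W) μ - S) = S := by
      refine LinearMap.ext fun w => ?_
      show (algebraMap K (W →ₗ[K] W)) μ w - ((algebraMap K (Module.End K W) μ) w - S w) = S w
      exact sub_sub_cancel _ _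
    rw [hcancel] at hev
    exact hev.symm
  have hφ0 : φ ⟨g₀, by rw [Subgroup.mem_centralizer_singleton_iff]⟩ ≠ 0 := by
    show Real.log (v (LinearMap.det (R _))) ≠ 0
    rw [hval, map_pow, Real.log_pow]
    have hμ0 : μ ≠ 0 := by
      intro h0
      have hdet := hdetne ⟨g₀, by rw [Subgroup.mem_centralizer_singleton_iff]⟩
      rw [hval, h0, zero_pow hWne.ne'] at hdet
      exact hdet rfl
    have hvpos : 0 < v μ := v.pos hμ0
    have hlog : Real.log (v μ) ≠ 0 := by
      intro h
      rcases Real.log_eq_zero.mp h with h | h | h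
      · exact hvpos.ne' h
      · exact hμ h
      · linarith
    have hdne : (d : ℝ) ≠ 0 := by exact_mod_cast hWne.ne'
    exact mul_ne_zero hdne hlog
  exact hsCoeff_eq_zero he ℓ hℓ0 hℓmul hℓinv φ hφmul hφle hφ0

end Group

end Vale.Agent.Lib.P184
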