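import Vale.Agent.Lib.P184.Approx
import Vale.Agent.Lib.P184.Defs

/-!
The vanishing theorem for idempotent matrices over `ℓ¹(G)`.
-/

namespace Vale.Agent.Lib.P184

open scoped Matrix

set_option linter.unusedSectionVars false

variable {G : Type*} [Group G]

attribute [local instance] Matrix.linftyOpNormedRing Matrix.linftyOpNormedAddCommGroup
  Matrix.linftyOpNormedSpace

/-- The matrix valued function attached to `e`. -/
def toMat {q : ℕ} (e : Fin q → Fin q → G → ℂ) (g : G) : Matrix (Fin q) (Fin q) ℂ :=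
  Matrix.of fun i j => e i j g

lemma entry_le {q : ℕ} (A : Matrix (Fin q) (Fin q) ℂ) (i j : Fin q) : ‖A i j‖ ≤ ‖A‖ := by
  rw [Matrix.linfty_opNorm_def]
  have h1 : ‖A i j‖₊ ≤ ∑ j, ‖A i j‖₊ :=
    Finset.single_le_sum (f := fun j => ‖A i j‖₊) (fun _ _ => zero_le) (Finset.mem_univ j)
  have h2 : ∑ j, ‖A i j‖₊ ≤ Finset.univ.sup fun i => ∑ j, ‖A i j‖₊ :=
    Finset.le_sup (f := fun i => ∑ j, ‖A i j‖₊) (Finset.mem_univ i)
  have h3 := h1.trans h2
  exact_mod_cast h3

lemma norm_le_sum {q : ℕ} (A : Matrix (Fin q) (Fin q) ℂ) : ‖A‖ ≤ ∑ i, ∑ j, ‖A i j‖ := by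
  rw [Matrix.linfty_opNorm_def]
  have : (Finset.univ.sup fun i => ∑ j, ‖A i j‖₊) ≤ ∑ i, ∑ j, ‖A i j‖₊ := by
    apply Finset.sup_le
    intro i _
    exact Finset.single_le_sum (f := fun i => ∑ j, ‖A i j‖₊) (fun _ _ => zero_le)
      (Finset.mem_univ i)
  have h2 : (((Finset.univ.sup fun i => ∑ j, ‖A i j‖₊) : NNReal) : ℝ) ≤
      ((∑ i, ∑ j, ‖A i j‖₊ : NNReal) : ℝ) := NNReal.coe_le_coe.mpr this
  simpa using h2

/-- The matrix trace as an additive map. -/
def trHom (q : ℕ) : Matrix (Fin q) (Fin q) ℂ →+ ℂ := Matrix.traceAddMonoidHom (Fin q) ℂ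

lemma trHom_le {q : ℕ} (A : Matrix (Fin q) (Fin q) ℂ) : ‖trHom q A‖ ≤ (q : ℝ) * ‖A‖ := by
  show ‖Matrix.trace A‖ ≤ _
  unfold Matrix.trace
  refine (norm_sum_le _ _).trans ?_
  calc ∑ i, ‖Matrix.diag A i‖ ≤ ∑ _i : Fin q, ‖A‖ :=
        Finset.sum_le_sum fun i _ => entry_le A i i
    _ = (q : ℝ) * ‖A‖ := by simp

lemma trHom_comm {q : ℕ} (A B : Matrix (Fin q) (Fin q) ℂ) :
    trHom q (A * B) = trHom q (B * A) := Matrix.trace_mul_comm A B

lemma toMat_summable {q : ℕ} {e : Fin q → Fin q → G → ℂ} (he : IsL1Idempotent e) :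
    Summable fun g => ‖toMat e g‖ := by
  refine Summable.of_nonneg_of_le (fun _ => norm_nonneg _) (fun g => norm_le_sum _) ?_
  exact summable_sum fun i _ => summable_sum fun j _ => he.summable i j

lemma toMat_idem {q : ℕ} {e : Fin q → Fin q → G → ℂ} (he : IsL1Idempotent e) (g : G) :
    HasSum (fun h => toMat e h * toMat e (h⁻¹ * g)) (toMat e g) := by
  -- summability in norm gives summability of the matrices, and entries identify the limit
  have hb : ∀ (k j : Fin q), ∃ C, ∀ h, ‖e k j h‖ ≤ C := by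
    intro k j
    exact ⟨_, fun h => (he.summable k j).le_tsum h (fun _ _ => norm_nonneg _)⟩
  have hsumm : ∀ (i k j : Fin q), Summable fun h => e i k h * e k j (h⁻¹ * g) := by
    intro i k j
    obtain ⟨C, hC⟩ := hb k j
    refine Summable.of_norm_bounded (g := fun h => ‖e i k h‖ * C)
      ((he.summable i k).mul_right C) (fun h => ?_)
    rw [norm_mul]
    exact mul_le_mul_of_nonneg_left (hC _) (norm_nonneg _)
  have hent : ∀ i j : Fin q, HasSum (fun h => (toMat e h * toMat e (h⁻¹ * g)) i j)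
      (toMat e g i j) := by
    intro i j
    have h1 : HasSum (fun h => ∑ k, e i k h * e k j (h⁻¹ * g))
        (∑ k, ∑' h, e i k h * e k j (h⁻¹ * g)) :=
      hasSum_sum fun k _ => (hsumm i k j).hasSum
    rw [he.idem i j g] at h1
    simpa [toMat, Matrix.mul_apply] using h1
  exact Pi.hasSum.mpr fun i => Pi.hasSum.mpr fun j => hent i j

/-- **Vanishing theorem.** Let `ℓ` be a length function on `G` and `φ` a homomorphism from the
centralizer of `g₀` to `ℝ` with `|φ z| ≤ ℓ z`. If `φ g₀ ≠ 0`, then the coefficient at the class of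
`g₀` of the Hattori-Stallings trace of any idempotent matrix over `ℓ¹(G)` is zero. -/
theorem hsCoeff_eq_zero {q : ℕ} {e : Fin q → Fin q → G → ℂ} (he : IsL1Idempotent e) {g₀ : G}
    (ℓ : G → ℝ) (hℓ0 : ∀ g, 0 ≤ ℓ g) (hℓmul : ∀ g h, ℓ (g * h) ≤ ℓ g + ℓ h)
    (hℓinv : ∀ g, ℓ g⁻¹ = ℓ g)
    (φ : Subgroup.centralizer ({g₀} : Set G) → ℝ) (hφmul : ∀ z z', φ (z * z') = φ z + φ z')
    (hφle : ∀ z, |φ z| ≤ ℓ (z : G))
    (hφ0 : φ ⟨g₀, by rw [Subgroup.mem_centralizer_singleton_iff]⟩ ≠ 0) :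
    hsCoeff e g₀ = 0 := by
  classical
  let L : LipHom g₀ :=
    { ℓ := ℓ, φ := φ, ℓ_nonneg := hℓ0, ℓ_mul := hℓmul, ℓ_inv := hℓinv, φ_mul := hφmul, φ_le := hφle }
  have key := vanishing_normedRing (D := Matrix (Fin q) (Fin q) ℂ) (trHom q)
    (K := (q : ℝ)) (by positivity) trHom_le trHom_comm (toMat e) (toMat_summable he)
    (toMat_idem he) L hφ0
  unfold hsCoeff
  have hsub := tsum_subtype ({g | IsConj g₀ g} : Set G) (fun g => ∑ i, e i i g)
  have e1 : (∑' g : {g : G // IsConj g₀ g}, ∑ i, e i i (g : G)) =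
      ∑' g, Set.indicator ({g | IsConj g₀ g} : Set G) (fun g => ∑ i, e i i g) g := hsub
  rw [e1, ← key]
  apply tsum_congr
  intro g
  by_cases hc : IsConj g₀ g
  · rw [Set.indicator_of_mem (by exact hc), if_pos hc]
    simp [trHom, toMat, Matrix.trace]
  · rw [Set.indicator_of_notMem (by exact hc), if_neg hc]

end Vale.Agent.Lib.P184
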