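import Vale.Agent.Lib.P184.Iter

/-!
Weighted sizes and the cochain functionals on the group ring `D[G]`.
-/

namespace Vale.Agent.Lib.P184

open MonoidAlgebra

set_option linter.unusedSectionVars false

variable {G : Type*} [Group G] {D : Type*} [NormedRing D]

/-- The weighted `ℓ¹` size of an element of the group ring. -/
noncomputable def wsize (w : G → ℝ) (x : MonoidAlgebra D G) : ℝ :=
  ∑ g ∈ x.coeff.support, w g * ‖x.coeff g‖

lemma wsize_eq_sum (w : G → ℝ) (x : MonoidAlgebra D G) {S : Finset G}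
    (hS : x.coeff.support ⊆ S) : wsize w x = ∑ g ∈ S, w g * ‖x.coeff g‖ := by
  unfold wsize
  exact Finset.sum_subset hS (fun g _ hg => by simp [Finsupp.notMem_support_iff.mp hg])

lemma wsize_nonneg {w : G → ℝ} (hw : ∀ g, 0 ≤ w g) (x : MonoidAlgebra D G) : 0 ≤ wsize w x := by
  unfold wsize
  exact Finset.sum_nonneg fun g _ => mul_nonneg (hw g) (norm_nonneg _)

lemma wsize_single (w : G → ℝ) (g : G) (a : D) :
    wsize w (single g a : MonoidAlgebra D G) = w g * ‖a‖ := by
  classical
  rw [wsize_eq_sum w _ (S := {g}) (by rw [coeff_single]; exact Finsupp.support_single_subset)]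
  simp [coeff_single]

lemma wsize_add {w : G → ℝ} (hw : ∀ g, 0 ≤ w g) (x y : MonoidAlgebra D G) :
    wsize w (x + y) ≤ wsize w x + wsize w y := by
  classical
  set S := x.coeff.support ∪ y.coeff.support with hS
  have h1 : x.coeff.support ⊆ S := Finset.subset_union_left
  have h2 : y.coeff.support ⊆ S := Finset.subset_union_right
  have h3 : (x + y).coeff.support ⊆ S := by
    rw [coeff_add]
    exact Finsupp.support_add
  rw [wsize_eq_sum w x h1, wsize_eq_sum w y h2, wsize_eq_sum w (x + y) h3, ← Finset.sum_add_distrib]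
  apply Finset.sum_le_sum
  intro g _
  rw [coeff_add, Finsupp.add_apply, ← mul_add]
  exact mul_le_mul_of_nonneg_left (norm_add_le _ _) (hw g)

lemma wsize_neg (w : G → ℝ) (x : MonoidAlgebra D G) : wsize w (-x) = wsize w x := by
  classical
  have h1 : (-x).coeff.support ⊆ x.coeff.support := by
    rw [coeff_neg, Finsupp.support_neg]
  rw [wsize_eq_sum w (-x) h1, wsize_eq_sum w x (Finset.Subset.refl _)]
  apply Finset.sum_congr rfl
  intro g _
  rw [coeff_neg, Finsupp.neg_apply, norm_neg]

lemma wsize_sum {ι : Type*} {w : G → ℝ} (hw : ∀ g, 0 ≤ w g) (s : Finset ι)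
    (f : ι → MonoidAlgebra D G) : wsize w (∑ i ∈ s, f i) ≤ ∑ i ∈ s, wsize w (f i) := by
  classical
  induction s using Finset.induction_on with
  | empty =>
    simp only [Finset.sum_empty]
    have : wsize w (0 : MonoidAlgebra D G) = 0 := by simp [wsize]
    rw [this]
  | insert i s hi ih =>
    rw [Finset.sum_insert hi, Finset.sum_insert hi]
    exact (wsize_add hw _ _).trans (by linarith)

lemma wsize_mul_le {w : G → ℝ} (hw : ∀ g, 0 ≤ w g) (x y : MonoidAlgebra D G) :
    wsize w (x * y) ≤
      ∑ g ∈ x.coeff.support, ∑ h ∈ y.coeff.support, w (g * h) * (‖x.coeff g‖ * ‖y.coeff h‖) := by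
  classical
  rw [mul_def]
  simp only [Finsupp.sum]
  refine (wsize_sum hw _ _).trans (Finset.sum_le_sum fun g _ => ?_)
  refine (wsize_sum hw _ _).trans (Finset.sum_le_sum fun h _ => ?_)
  rw [wsize_single]
  exact mul_le_mul_of_nonneg_left (norm_mul_le _ _) (hw _)

/-- The plain `ℓ¹` size. -/
noncomputable abbrev size1 (x : MonoidAlgebra D G) : ℝ := wsize (fun _ => 1) x

lemma size1_mul (x y : MonoidAlgebra D G) : size1 (x * y) ≤ size1 x * size1 y := by
  classical
  refine (wsize_mul_le (fun _ => zero_le_one) x y).trans ?_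
  simp only [size1, wsize]
  rw [Finset.sum_mul_sum]
  apply le_of_eq
  apply Finset.sum_congr rfl
  intro g _
  apply Finset.sum_congr rfl
  intro h _
  ring

lemma wsize_leibniz {ℓ : G → ℝ} (hℓ0 : ∀ g, 0 ≤ ℓ g) (hℓ : ∀ g h, ℓ (g * h) ≤ ℓ g + ℓ h)
    (x y : MonoidAlgebra D G) :
    wsize ℓ (x * y) ≤ wsize ℓ x * size1 y + size1 x * wsize ℓ y := by
  classical
  refine (wsize_mul_le hℓ0 x y).trans ?_
  simp only [size1, wsize]
  rw [Finset.sum_mul_sum, Finset.sum_mul_sum, ← Finset.sum_add_distrib]
  apply Finset.sum_le_sum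
  intro g _
  rw [← Finset.sum_add_distrib]
  apply Finset.sum_le_sum
  intro h _
  have h1 := hℓ g h
  have h2 : 0 ≤ ‖x.coeff g‖ * ‖y.coeff h‖ := by positivity
  calc ℓ (g * h) * (‖x.coeff g‖ * ‖y.coeff h‖)
      ≤ (ℓ g + ℓ h) * (‖x.coeff g‖ * ‖y.coeff h‖) := mul_le_mul_of_nonneg_right h1 h2
    _ = _ := by ring

/-- The weighted trace on the group ring. -/
noncomputable def wtrace (tr : D →+ ℂ) (w : G → ℂ) : MonoidAlgebra D G →+ ℂ where
  toFun x := x.coeff.sum fun g a => w g * tr a
  map_zero' := by simp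
  map_add' x y := by
    simp only [coeff_add]
    exact Finsupp.sum_add_index' (by simp) (fun g a b => by rw [map_add, mul_add])

lemma wtrace_single (tr : D →+ ℂ) (w : G → ℂ) (g : G) (a : D) :
    wtrace tr w (single g a) = w g * tr a := by
  have : wtrace tr w (single g a) =
      (single g a : MonoidAlgebra D G).coeff.sum (fun g a => w g * tr a) := rfl
  rw [this, coeff_single, Finsupp.sum_single_index (by simp)]

lemma wtrace_le (tr : D →+ ℂ) {K : ℝ} (htr : ∀ a, ‖tr a‖ ≤ K * ‖a‖) {w : G → ℂ}
    (hw : ∀ g, ‖w g‖ ≤ 1) (x : MonoidAlgebra D G) :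
    ‖wtrace tr w x‖ ≤ K * size1 x := by
  show ‖x.coeff.sum fun g a => w g * tr a‖ ≤ K * wsize _ x
  simp only [wsize, Finsupp.sum]
  rw [Finset.mul_sum]
  refine (norm_sum_le _ _).trans (Finset.sum_le_sum fun g _ => ?_)
  rw [norm_mul, one_mul]
  calc ‖w g‖ * ‖tr (x.coeff g)‖ ≤ 1 * (K * ‖x.coeff g‖) :=
        mul_le_mul (hw g) (htr _) (norm_nonneg _) zero_le_one
    _ = _ := one_mul _

/-- The bilinear functional on the group ring attached to a kernel `ψ`. -/
noncomputable def kpair (tr : D →+ ℂ) (ψ : G → G → ℂ) :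
    MonoidAlgebra D G →+ MonoidAlgebra D G →+ ℂ where
  toFun x :=
    { toFun := fun y => x.coeff.sum fun g a => y.coeff.sum fun h b => ψ g h * tr (a * b)
      map_zero' := by simp
      map_add' := fun y z => by
        have key : ∀ g a, (y + z).coeff.sum (fun h b => ψ g h * tr (a * b)) =
            y.coeff.sum (fun h b => ψ g h * tr (a * b)) +
              z.coeff.sum (fun h b => ψ g h * tr (a * b)) := by
          intro g a
          simp only [coeff_add]
          exact Finsupp.sum_add_index' (by simp)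
            (fun h b c => by rw [mul_add, map_add, mul_add])
        simp only [key]
        exact Finsupp.sum_add }
  map_zero' := by
    refine AddMonoidHom.ext fun y => ?_
    show (0 : MonoidAlgebra D G).coeff.sum (fun g a => y.coeff.sum fun h b => ψ g h * tr (a * b)) = 0
    simp
  map_add' x x' := by
    refine AddMonoidHom.ext fun y => ?_
    show (x + x').coeff.sum (fun g a => y.coeff.sum fun h b => ψ g h * tr (a * b)) =
      x.coeff.sum (fun g a => y.coeff.sum fun h b => ψ g h * tr (a * b)) +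
        x'.coeff.sum (fun g a => y.coeff.sum fun h b => ψ g h * tr (a * b))
    rw [coeff_add]
    refine Finsupp.sum_add_index' (fun g => ?_) (fun g a a' => ?_)
    · simp [Finsupp.sum]
    · simp only [add_mul, map_add, mul_add]
      exact Finsupp.sum_add

lemma kpair_single (tr : D →+ ℂ) (ψ : G → G → ℂ) (g h : G) (a b : D) :
    kpair tr ψ (single g a) (single h b) = ψ g h * tr (a * b) := by
  show (single g a : MonoidAlgebra D G).coeff.sum
    (fun g a => (single h b : MonoidAlgebra D G).coeff.sum fun h b => ψ g h * tr (a * b)) = _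
  rw [coeff_single, coeff_single, Finsupp.sum_single_index (by simp),
    Finsupp.sum_single_index (by simp)]

lemma kpair_apply (tr : D →+ ℂ) (ψ : G → G → ℂ) (x y : MonoidAlgebra D G) :
    kpair tr ψ x y = x.coeff.sum fun g a => y.coeff.sum fun h b => ψ g h * tr (a * b) := rfl

lemma kpair_le (tr : D →+ ℂ) {K : ℝ} (hK0 : 0 ≤ K) (htr : ∀ a, ‖tr a‖ ≤ K * ‖a‖)
    {ψ : G → G → ℂ} {ℓ : G → ℝ} (hψ : ∀ g h, ‖ψ g h‖ ≤ ℓ g) (hℓ0 : ∀ g, 0 ≤ ℓ g)
    (x y : MonoidAlgebra D G) :
    ‖kpair tr ψ x y‖ ≤ K * (wsize ℓ x * size1 y) := by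
  rw [kpair_apply]
  simp only [size1, wsize, Finsupp.sum]
  rw [Finset.sum_mul_sum, Finset.mul_sum]
  refine (norm_sum_le _ _).trans (Finset.sum_le_sum fun g _ => ?_)
  rw [Finset.mul_sum]
  refine (norm_sum_le _ _).trans (Finset.sum_le_sum fun h _ => ?_)
  rw [norm_mul]
  have h1 := hψ g h
  have h2 : ‖tr (x.coeff g * y.coeff h)‖ ≤ K * (‖x.coeff g‖ * ‖y.coeff h‖) :=
    (htr _).trans (mul_le_mul_of_nonneg_left (norm_mul_le _ _) hK0)
  calc ‖ψ g h‖ * ‖tr (x.coeff g * y.coeff h)‖
      ≤ ℓ g * (K * (‖x.coeff g‖ * ‖y.coeff h‖)) :=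
        mul_le_mul h1 h2 (norm_nonneg _) (hℓ0 g)
    _ = _ := by ring

/-- The first cochain identity, from the identity on group elements. -/
lemma kpair_I1 (tr : D →+ ℂ) (htr : ∀ a b, tr (a * b) = tr (b * a)) (ψ : G → G → ℂ) (w : G → ℂ)
    (θ : ℂ) (hψ : ∀ g h, θ * w (g * h) = ψ g h + ψ h g) (x y : MonoidAlgebra D G) :
    θ * wtrace tr w (x * y) = kpair tr ψ x y + kpair tr ψ y x := by
  induction x using MonoidAlgebra.induction_linear with
  | zero => simp
  | add x₁ x₂ h₁ h₂ =>
    rw [add_mul, map_add, mul_add, h₁, h₂]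
    simp only [map_add, AddMonoidHom.add_apply]
    ring
  | single g a =>
    induction y using MonoidAlgebra.induction_linear with
    | zero => simp
    | add y₁ y₂ h₁ h₂ =>
      rw [mul_add, map_add, mul_add, h₁, h₂]
      simp only [map_add, AddMonoidHom.add_apply]
      ring
    | single h b =>
      rw [single_mul_single, wtrace_single, kpair_single, kpair_single, htr b a, ← mul_assoc,
        hψ g h, add_mul]

/-- The second cochain identity, from the identity on group elements. -/
lemma kpair_I2 (tr : D →+ ℂ) (htr : ∀ a b, tr (a * b) = tr (b * a)) (ψ : G → G → ℂ)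
    (hψ : ∀ g h k, ψ (g * h) k = ψ g (h * k) + ψ h (k * g)) (x y z : MonoidAlgebra D G) :
    kpair tr ψ (x * y) z = kpair tr ψ x (y * z) + kpair tr ψ y (z * x) := by
  induction x using MonoidAlgebra.induction_linear with
  | zero => simp
  | add x₁ x₂ h₁ h₂ =>
    rw [add_mul, mul_add]
    simp only [map_add, AddMonoidHom.add_apply]
    rw [h₁, h₂]
    ring
  | single g a =>
    induction y using MonoidAlgebra.induction_linear with
    | zero => simp
    | add y₁ y₂ h₁ h₂ =>
      rw [mul_add, add_mul]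
      simp only [map_add, AddMonoidHom.add_apply]
      rw [h₁, h₂]
      ring
    | single h b =>
      induction z using MonoidAlgebra.induction_linear with
      | zero => simp
      | add z₁ z₂ h₁ h₂ =>
        rw [map_add, h₁, h₂, mul_add, add_mul]
        simp only [map_add]
        ring
      | single k c =>
        simp only [single_mul_single, kpair_single]
        have e1 : tr (a * (b * c)) = tr (a * b * c) := by rw [mul_assoc]
        have e2 : tr (b * (c * a)) = tr (a * b * c) := by
          rw [mul_assoc, htr a (b * c), mul_assoc]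
        rw [hψ g h k, e1, e2]
        ring

end Vale.Agent.Lib.P184
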